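import Crest.Agent.R322.Ellipsoid

/-! One block of samples multiplies the Frostman constant by a bounded factor. -/

set_option autoImplicit false

open MeasureTheory ProbabilityTheory Metric Set Filter
open scoped ENNReal NNReal RealInnerProductSpace Topology

namespace Crest.Agent.R322

variable {E : Type*} [NormedAddCommGroup E] [InnerProductSpace ℝ E] [FiniteDimensional ℝ E]
  [MeasurableSpace E] [BorelSpace E]

/-- the radii used for lower densities -/
noncomputable def rad (n : ℕ) : ℝ := 1 / ((n : ℝ) + 1)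

lemma rad_pos (n : ℕ) : 0 < rad n := by unfold rad; positivity

lemma tendsto_rad : Tendsto rad atTop (𝓝[>] 0) :=
  tendsto_nhdsWithin_iff.2 ⟨tendsto_one_div_add_atTop_nhds_zero_nat,
    Eventually.of_forall fun n => rad_pos n⟩

omit [FiniteDimensional ℝ E] [MeasurableSpace E] [BorelSpace E] in
lemma preimage_meas_closedBall {k : ℕ} (X : Fin k → E) (a : E) {η : ℝ} (hη : 0 ≤ η) :
    meas X ⁻¹' closedBall (meas X a) η = box X a η := by
  ext s
  simp only [mem_preimage, mem_closedBall, dist_pi_le_iff hη, Real.dist_eq, meas, box,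
    mem_ofPred_eq, inner_sub_right]

lemma measurable_meas (k : ℕ) : Measurable fun p : (Fin k → E) × E => meas p.1 p.2 := by
  unfold meas
  fun_prop

lemma measurable_meas' {k : ℕ} (X : Fin k → E) : Measurable (meas X) :=
  (measurable_meas k).comp (measurable_const.prodMk measurable_id)

/-- the points of large lower density -/
def bad (ν : Measure E) (k : ℕ) (c : ℝ≥0) : Set ((Fin k → E) × E) :=
  {p | ∀ᶠ n in atTop, c * ENNReal.ofReal (2 * rad n) ^ k < ν (box p.1 p.2 (rad n))}

theorem density_split (ν : Measure E) [IsFiniteMeasure ν] {k : ℕ} (X : Fin k → E) (B : Set E)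
    (hB : ν Bᶜ = 0) (c : ℝ≥0) (S : Set (Fin k → ℝ)) :
    ν (meas X ⁻¹' S) ≤ c * volume (S ∩ meas X '' B) + ν (Prod.mk X ⁻¹' bad ν k c) := by
  set μ := ν.map (meas X) with hμ
  set G : Set (Fin k → ℝ) := {y | ∃ᶠ n in atTop,
    μ (closedBall y (rad n)) ≤ (c • (volume : Measure (Fin k → ℝ))) (closedBall y (rad n))} with hG
  have hsub : meas X ⁻¹' S ⊆
      (meas X ⁻¹' (S ∩ meas X '' B ∩ G) ∪ Prod.mk X ⁻¹' bad ν k c) ∪ Bᶜ := by
    intro s hs
    by_cases hsB : s ∈ B
    · left
      by_cases hsG : meas X s ∈ G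
      · exact Or.inl ⟨⟨hs, mem_image_of_mem _ hsB⟩, hsG⟩
      · right
        simp only [hG, mem_ofPred_eq, not_frequently, not_le] at hsG
        simp only [bad, mem_preimage, mem_ofPred_eq]
        filter_upwards [hsG] with n hn
        rw [hμ, Measure.map_apply (measurable_meas' X) measurableSet_closedBall,
          preimage_meas_closedBall X s (rad_pos n).le, Measure.smul_apply,
          Real.volume_pi_closedBall _ (rad_pos n).le, Fintype.card_fin,
          ENNReal.ofReal_pow (by have := rad_pos n; positivity)] at hn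
        exact hn
    · exact Or.inr hsB
  refine (measure_mono hsub).trans ((measure_union_le _ _).trans ?_)
  rw [hB, add_zero]
  refine (measure_union_le _ _).trans ?_
  gcongr
  refine (Measure.le_map_apply (measurable_meas' X).aemeasurable _).trans ?_
  have h1 : μ (S ∩ meas X '' B ∩ G) ≤
      (c • (volume : Measure (Fin k → ℝ))) (S ∩ meas X '' B ∩ G) := by
    refine (Besicovitch.vitaliFamily μ).measure_le_of_frequently_le _ Measure.AbsolutelyContinuous.rfl
      _ fun y hy => ?_
    exact ((Besicovitch.tendsto_filterAt μ y).comp tendsto_rad).frequently hy.2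
  refine h1.trans ?_
  rw [Measure.smul_apply]
  change (c : ℝ≥0∞) * _ ≤ _
  exact mul_le_mul_right (measure_mono inter_subset_left) _

lemma measurableSet_badn (ν : Measure E) [SFinite ν] (k : ℕ) (c : ℝ≥0) (n : ℕ) :
    MeasurableSet {p : (Fin k → E) × E |
      c * ENNReal.ofReal (2 * rad n) ^ k < ν (box p.1 p.2 (rad n))} :=
  measurableSet_lt measurable_const (measurable_measure_box ν k _)

omit [FiniteDimensional ℝ E] [BorelSpace E] in
lemma bad_eq (ν : Measure E) (k : ℕ) (c : ℝ≥0) :
    bad ν k c = ⋃ M : ℕ, ⋂ n, ⋂ _ : M ≤ n, {p : (Fin k → E) × E |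
      c * ENNReal.ofReal (2 * rad n) ^ k < ν (box p.1 p.2 (rad n))} := by
  ext p
  simp [bad, eventually_atTop]

lemma measurableSet_bad (ν : Measure E) [SFinite ν] (k : ℕ) (c : ℝ≥0) :
    MeasurableSet (bad ν k c) := by
  rw [bad_eq]
  exact MeasurableSet.iUnion fun M => MeasurableSet.iInter fun n =>
    MeasurableSet.iInter fun _ => measurableSet_badn ν k c n

theorem bad_le (ν : Measure E) [IsFiniteMeasure ν] {k : ℕ} {N : ℝ} (hN : 0 ≤ N)
    (hν : Frost ν (2 * k) N) (x : E) {r : ℝ} (hr : 0 < r) (hsupp : ν (closedBall x r)ᶜ = 0)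
    (c : ℝ≥0) :
    (c : ℝ≥0∞) ^ k * ((Measure.pi fun _ : Fin k => stdGaussian E).prod ν) (bad ν k c) ≤
      ENNReal.ofReal (16 ^ k * N * (2 * r) ^ k) ^ k * ν univ := by
  set Γ := (Measure.pi fun _ : Fin k => stdGaussian E) with hΓ
  set K := ENNReal.ofReal (16 ^ k * N * (2 * r) ^ k) with hK
  have key : ∀ n, (c : ℝ≥0∞) ^ k * (Γ.prod ν) {p : (Fin k → E) × E |
      c * ENNReal.ofReal (2 * rad n) ^ k < ν (box p.1 p.2 (rad n))} ≤ K ^ k * ν univ := by
    intro n
    set t := ENNReal.ofReal (2 * rad n) ^ k with ht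
    have ht0 : t ≠ 0 := pow_ne_zero _ (by simpa using rad_pos n)
    have htt : t ≠ ∞ := ENNReal.pow_ne_top ENNReal.ofReal_ne_top
    have hm : Measurable fun p : (Fin k → E) × E => ν (box p.1 p.2 (rad n)) ^ k :=
      (measurable_measure_box ν k _).pow_const k
    have h1 := mul_meas_ge_le_lintegral₀ (μ := Γ.prod ν) hm.aemeasurable ((c * t) ^ k)
    have h2 : ∫⁻ p, ν (box p.1 p.2 (rad n)) ^ k ∂(Γ.prod ν) ≤ (t * K) ^ k * ν univ := by
      rw [lintegral_prod_symm _ hm.aemeasurable, ← lintegral_const]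
      refine lintegral_mono_ae ?_
      have hae : ∀ᵐ a ∂ν, a ∈ closedBall x r := hsupp
      filter_upwards [hae] with a ha
      refine moment_le' ν hN hν a (by positivity) ?_ (rad_pos n)
      refine measure_mono_null (compl_subset_compl.2 ?_) hsupp
      intro s hs
      rw [mem_closedBall] at *
      linarith [dist_triangle s x a, dist_comm x a]
    have h3 : (c * t) ^ k * (Γ.prod ν) {p : (Fin k → E) × E | c * t < ν (box p.1 p.2 (rad n))} ≤
        (t * K) ^ k * ν univ := by
      refine le_trans ?_ (h1.trans h2)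
      gcongr (c * t) ^ k * (Γ.prod ν) ?_
      intro p hp
      simp only [mem_ofPred_eq] at hp ⊢
      gcongr
    rw [mul_pow, mul_pow, mul_comm ((c : ℝ≥0∞) ^ k), mul_assoc, mul_assoc] at h3
    exact (ENNReal.mul_le_mul_iff_right (pow_ne_zero _ ht0) (ENNReal.pow_ne_top htt)).1 h3
  rw [bad_eq, Monotone.measure_iUnion, ENNReal.mul_iSup]
  · refine iSup_le fun M => le_trans ?_ (key M)
    gcongr
    exact (iInter_subset _ M).trans (iInter_subset _ le_rfl)
  · intro M M' hMM p hp
    simp only [mem_iInter] at hp ⊢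
    exact fun n hn => hp n (hMM.trans hn)

theorem block_step (σ : Measure E) [SFinite σ] {k : ℕ} (hk1 : 1 ≤ k)
    (hvol : ∀ (x : E) (r : ℝ), 0 ≤ r → ∫⁻ X, volume (meas X '' closedBall x r)
      ∂(Measure.pi fun _ : Fin k => stdGaussian E) ≤ ENNReal.ofReal ((16 * r) ^ k))
    {ι : Type*} (Q : Finset ι) (h : ι → E → ℝ≥0∞) (hh : ∀ q, Measurable (h q))
    {N : ℝ} (hN : 0 < N) (hF : ∀ q ∈ Q, Frost (σ.withDensity (h q)) (2 * k) N)
    (τ : (Fin k → E) × (Fin k → ℝ) → ι) (hτ : ∀ p, τ p ∈ Q)
    (hτm : ∀ q, MeasurableSet {p | τ p = q})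
    {Λ : ℝ} (hΛ : 1 ≤ Λ) (hQ : (Q.card : ℝ) ≤ Λ ^ k) :
    Frost (σ.withDensity fun s => ∫⁻ X, h (τ (X, meas X s)) s
      ∂(Measure.pi fun _ : Fin k => stdGaussian E)) (2 * k) (Λ * 1024 ^ k * N) := by
  classical
  intro x r hr
  replace hvol := hvol x r hr.le
  set Γ := (Measure.pi fun _ : Fin k => stdGaussian E) with hΓ
  set B := closedBall x r with hB
  set ν : ι → Measure E := fun q => (σ.withDensity (h q)).restrict B with hν
  have hνu : ∀ q ∈ Q, ν q univ ≤ ENNReal.ofReal (N * r ^ (2 * k)) := by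
    intro q hq
    simp only [hν, Measure.restrict_apply_univ]
    exact hF q hq x r hr
  have hνfin : ∀ q ∈ Q, IsFiniteMeasure (ν q) := fun q hq =>
    ⟨(hνu q hq).trans_lt ENNReal.ofReal_lt_top⟩
  have hνF : ∀ q ∈ Q, Frost (ν q) (2 * k) N := fun q hq y ρ hρ =>
    (Measure.restrict_apply_le _ _).trans (hF q hq y ρ hρ)
  have hνs : ∀ q, ν q Bᶜ = 0 := by
    intro q
    simp only [hν]
    rw [Measure.restrict_apply measurableSet_closedBall.compl, hB, compl_inter_self, measure_empty]
  set A : ι → Set ((Fin k → E) × E) := fun q => {p | τ (p.1, meas p.1 p.2) = q} with hA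
  have hAm : ∀ q, MeasurableSet (A q) := fun q =>
    (measurable_fst.prodMk (measurable_meas k)) (hτm q)
  have hsum : ∀ (X : Fin k → E) (s : E), h (τ (X, meas X s)) s =
      ∑ q ∈ Q, (A q).indicator (fun p => h q p.2) (X, s) := by
    intro X s
    rw [Finset.sum_eq_single_of_mem (τ (X, meas X s)) (hτ _)]
    · rw [indicator_of_mem (show (X, s) ∈ A _ from rfl)]
    · intro q _ hq
      rw [indicator_of_notMem (show (X, s) ∉ A q from fun h => hq (Eq.symm h))]
  have hmeas : ∀ q, Measurable ((A q).indicator fun p : (Fin k → E) × E => h q p.2) := fun q =>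
    ((hh q).comp measurable_snd).indicator (hAm q)
  set K : ℝ := 16 ^ k * N * (2 * r) ^ k with hK
  have hKpos : 0 < K := by positivity
  set c : ℝ≥0 := (Λ * K).toNNReal with hc
  have hcE : (c : ℝ≥0∞) = ENNReal.ofReal (Λ * K) := rfl
  have hbad : ∀ q ∈ Q, ∫⁻ X, ν q (Prod.mk X ⁻¹' bad (ν q) k c) ∂Γ ≤
      ENNReal.ofReal (N * r ^ (2 * k) / Λ ^ k) := by
    intro q hq
    have := hνfin q hq
    rw [← Measure.prod_apply (measurableSet_bad _ k c)]
    have h1 := bad_le (ν q) hN.le (hνF q hq) x hr (hνs q) c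
    have h2 : (c : ℝ≥0∞) ^ k * ENNReal.ofReal (N * r ^ (2 * k) / Λ ^ k) =
        ENNReal.ofReal K ^ k * ENNReal.ofReal (N * r ^ (2 * k)) := by
      rw [hcE, ← ENNReal.ofReal_pow (by positivity), ← ENNReal.ofReal_pow (by positivity),
        ← ENNReal.ofReal_mul (by positivity), ← ENNReal.ofReal_mul (by positivity)]
      congr 1
      rw [mul_pow]
      field_simp
    have hc0 : (c : ℝ≥0∞) ^ k ≠ 0 := pow_ne_zero _ (by rw [hcE]; simp; positivity)
    have hct : (c : ℝ≥0∞) ^ k ≠ ∞ := ENNReal.pow_ne_top ENNReal.coe_ne_top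
    refine (ENNReal.mul_le_mul_iff_right hc0 hct).1 (h1.trans ?_)
    rw [h2]
    gcongr
    exact hνu q hq
  rw [withDensity_apply _ measurableSet_closedBall]
  calc ∫⁻ s in B, ∫⁻ X, h (τ (X, meas X s)) s ∂Γ ∂σ
      = ∫⁻ X, ∫⁻ s in B, h (τ (X, meas X s)) s ∂σ ∂Γ := by
        symm
        apply lintegral_lintegral_swap
        apply Measurable.aemeasurable
        have : (Function.uncurry fun (X : Fin k → E) (s : E) => h (τ (X, meas X s)) s) =
            fun p => ∑ q ∈ Q, (A q).indicator (fun p => h q p.2) p := by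
          ext p
          exact hsum p.1 p.2
        rw [this]
        exact Finset.measurable_sum _ fun q _ => hmeas q
    _ = ∫⁻ X, ∑ q ∈ Q, ν q (meas X ⁻¹' {y | τ (X, y) = q}) ∂Γ := by
        congr 1 with X
        simp_rw [hsum]
        rw [lintegral_finsetSum (f := fun q s => (A q).indicator (fun p => h q p.2) (X, s)) _
          fun q _ => (hmeas q).comp measurable_prodMk_left]
        refine Finset.sum_congr rfl fun q _ => ?_
        have hAX : MeasurableSet (meas X ⁻¹' {y | τ (X, y) = q}) := measurable_prodMk_left (hAm q)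
        simp only [hν]
        rw [Measure.restrict_apply hAX, withDensity_apply _ (hAX.inter measurableSet_closedBall),
          ← Measure.restrict_restrict hAX, ← lintegral_indicator hAX]
        rfl
    _ ≤ ∫⁻ X, (c * volume (meas X '' B) + ∑ q ∈ Q, ν q (Prod.mk X ⁻¹' bad (ν q) k c)) ∂Γ := by
        refine lintegral_mono fun X => ?_
        have hSm : ∀ q, MeasurableSet {y | τ (X, y) = q} := fun q => measurable_prodMk_left (hτm q)
        calc ∑ q ∈ Q, ν q (meas X ⁻¹' {y | τ (X, y) = q})
            ≤ ∑ q ∈ Q, (c * volume ({y | τ (X, y) = q} ∩ meas X '' B) +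
                ν q (Prod.mk X ⁻¹' bad (ν q) k c)) := by
              refine Finset.sum_le_sum fun q hq => ?_
              have := hνfin q hq
              exact density_split (ν q) X B (hνs q) c _
          _ ≤ _ := by
              rw [Finset.sum_add_distrib, ← Finset.mul_sum]
              gcongr
              have h1 := sum_measure_le_measure_univ (μ := volume.restrict (meas X '' B)) (s := Q)
                (t := fun q => {y | τ (X, y) = q}) (fun q _ => (hSm q).nullMeasurableSet)
                (fun q _ q' _ hqq => Disjoint.aedisjoint (Set.disjoint_left.2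
                  fun y hy hy' => hqq (Eq.trans (Eq.symm hy) hy')))
              simp only [Measure.restrict_apply (hSm _), Measure.restrict_apply_univ] at h1
              exact h1
    _ = c * ∫⁻ X, volume (meas X '' B) ∂Γ +
          ∑ q ∈ Q, ∫⁻ X, ν q (Prod.mk X ⁻¹' bad (ν q) k c) ∂Γ := by
        have hmq : ∀ q ∈ Q, Measurable fun X => ν q (Prod.mk X ⁻¹' bad (ν q) k c) := by
          intro q hq
          have := hνfin q hq
          exact measurable_measure_prodMk_left (measurableSet_bad _ k c)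
        rw [lintegral_add_right _ (Finset.measurable_sum _ hmq),
          lintegral_const_mul' _ _ ENNReal.coe_ne_top, lintegral_finsetSum _ hmq]
    _ ≤ ENNReal.ofReal (Λ * K) * ENNReal.ofReal ((16 * r) ^ k) +
          ∑ _q ∈ Q, ENNReal.ofReal (N * r ^ (2 * k) / Λ ^ k) := by
        rw [hcE]
        gcongr with q hq
        exact hbad q hq
    _ ≤ ENNReal.ofReal (Λ * 1024 ^ k * N * r ^ (2 * k)) := by
        rw [Finset.sum_const, nsmul_eq_mul, ← ENNReal.ofReal_natCast,
          ← ENNReal.ofReal_mul (by positivity), ← ENNReal.ofReal_mul (by positivity),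
          ← ENNReal.ofReal_add (by positivity) (by positivity)]
        apply ENNReal.ofReal_le_ofReal
        have h1 : (Q.card : ℝ) * (N * r ^ (2 * k) / Λ ^ k) ≤ N * r ^ (2 * k) := by
          rw [mul_div_assoc', div_le_iff₀ (by positivity), mul_comm]
          gcongr
        have h2 : Λ * K * (16 * r) ^ k = Λ * 512 ^ k * (N * r ^ (2 * k)) := by
          rw [hK, show (512 : ℝ) = 16 * 2 * 16 by norm_num, two_mul k]
          simp only [mul_pow, pow_add]
          ring
        have h3 : (1 : ℝ) ≤ Λ * 512 ^ k := one_le_mul_of_one_le_of_one_le hΛ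
          (one_le_pow₀ (by norm_num))
        have h4 : (2 : ℝ) * 512 ^ k ≤ 1024 ^ k := by
          rw [show (1024 : ℝ) = 2 * 512 by norm_num, mul_pow]
          gcongr
          exact le_self_pow₀ (by norm_num) (by omega)
        have h5 : 0 ≤ N * r ^ (2 * k) := by positivity
        rw [h2]
        calc Λ * 512 ^ k * (N * r ^ (2 * k)) + (Q.card : ℝ) * (N * r ^ (2 * k) / Λ ^ k)
            ≤ Λ * 512 ^ k * (N * r ^ (2 * k)) + Λ * 512 ^ k * (N * r ^ (2 * k)) :=
              add_le_add le_rfl (h1.trans (le_mul_of_one_le_left h5 h3))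
          _ = Λ * (2 * 512 ^ k) * (N * r ^ (2 * k)) := by ring
          _ ≤ Λ * 1024 ^ k * (N * r ^ (2 * k)) := by gcongr
          _ = _ := by ring

end Crest.Agent.R322
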