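import Crest.Agent.R322.Gauss

/-! Volume of the image of a ball under the measurement map. -/

set_option autoImplicit false

open MeasureTheory ProbabilityTheory Metric Set
open scoped ENNReal RealInnerProductSpace

namespace Crest.Agent.R322

variable {E : Type*} [NormedAddCommGroup E] [InnerProductSpace ℝ E] [FiniteDimensional ℝ E]

/-- the measurement map -/
def meas {k : ℕ} (X : Fin k → E) (s : E) : Fin k → ℝ := fun i => ⟪X i, s⟫

lemma exists_finrank_eq (V : Submodule ℝ E) (n : ℕ) :
    Module.finrank ℝ V ≤ n → n ≤ Module.finrank ℝ E →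
      ∃ W : Submodule ℝ E, V ≤ W ∧ Module.finrank ℝ W = n := by
  induction n with
  | zero => intro h _; exact ⟨V, le_rfl, by omega⟩
  | succ n ih =>
    intro h1 h2
    rcases h1.eq_or_lt with h | h
    · exact ⟨V, le_rfl, h⟩
    · obtain ⟨W, hVW, hW⟩ := ih (by omega) (by omega)
      have : W ≠ ⊤ := by
        rintro rfl
        rw [finrank_top] at hW
        omega
      obtain ⟨v, hv⟩ : ∃ v, v ∉ W := by
        by_contra hc
        push Not at hc
        exact this (Submodule.eq_top_iff'.2 hc)
      exact ⟨W ⊔ Submodule.span ℝ {v}, hVW.trans le_sup_left, by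
        rw [Submodule.finrank_sup_span_singleton hv, hW]⟩

omit [FiniteDimensional ℝ E] in
lemma finrank_span_range_le {k : ℕ} (X : Fin k → E) :
    Module.finrank ℝ (Submodule.span ℝ (range X)) ≤ k := by
  simpa [Set.finrank] using finrank_range_le_card (R := ℝ) X

theorem volume_image_le {m : ℕ} (hm : 1 ≤ m) (hk : 2 * m ≤ Module.finrank ℝ E)
    (X : Fin (2 * m) → E) (x : E) {r : ℝ} (hr : 0 ≤ r) :
    volume (meas X '' closedBall x r) ≤
      ENNReal.ofReal (r ^ (2 * m) * (Real.pi ^ m / m.factorial) * ∏ i, ‖X i‖) := by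
  classical
  obtain ⟨W, hVW, hW⟩ := exists_finrank_eq (Submodule.span ℝ (range X)) (2 * m)
    (finrank_span_range_le X) hk
  have hXW : ∀ i, X i ∈ W := fun i => hVW (Submodule.subset_span (mem_range_self i))
  set X' : Fin (2 * m) → W := fun i => ⟨X i, hXW i⟩ with hX'
  have hcard : Module.finrank ℝ W = Fintype.card (Fin (2 * m)) := by simpa using hW
  set b := InnerProductSpace.gramSchmidtOrthonormalBasis hcard X' with hb
  set L : Matrix (Fin (2 * m)) (Fin (2 * m)) ℝ := (b.toBasis.toMatrix X').transpose with hL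
  have hdet : |L.det| ≤ ∏ i, ‖X i‖ := by
    rw [hL, Matrix.det_transpose, ← Module.Basis.det_apply, hb,
      InnerProductSpace.gramSchmidtOrthonormalBasis_det, Finset.abs_prod]
    apply Finset.prod_le_prod (fun _ _ => abs_nonneg _)
    intro i _
    refine (abs_real_inner_le_norm _ _).trans ?_
    rw [(InnerProductSpace.gramSchmidtOrthonormalBasis hcard X').orthonormal.1 i, one_mul]
    rfl
  set B : Set (Fin (2 * m) → ℝ) :=
    WithLp.toLp 2 ⁻¹' closedBall (0 : EuclideanSpace ℝ (Fin (2 * m))) r with hB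
  have hBvol : volume B = ENNReal.ofReal (r ^ (2 * m) * (Real.pi ^ m / m.factorial)) := by
    have : Nonempty (Fin (2 * m)) := ⟨⟨0, by omega⟩⟩
    rw [hB, (PiLp.volume_preserving_toLp _).measure_preimage
      measurableSet_closedBall.nullMeasurableSet,
      InnerProductSpace.volume_closedBall_of_dim_even (k := m) (by simp), finrank_euclideanSpace,
      Fintype.card_fin, ← ENNReal.ofReal_pow hr, ← ENNReal.ofReal_mul (by positivity)]
  have hsub : meas X '' closedBall x r ⊆
      (fun y => meas X x + y) '' (Matrix.toLin' L '' B) := by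
    rintro _ ⟨s, hs, rfl⟩
    rw [mem_closedBall, dist_eq_norm] at hs
    refine ⟨_, ⟨fun j => ⟪(b j : E), s - x⟫, ?_, rfl⟩, ?_⟩
    · rw [hB, mem_preimage, mem_closedBall, dist_zero_right, EuclideanSpace.norm_eq]
      refine le_trans ?_ hs
      apply Real.sqrt_le_iff.2 ⟨norm_nonneg _, ?_⟩
      have hon : Orthonormal ℝ (fun j => (b j : E)) := b.orthonormal.comp_linearIsometry W.subtypeₗᵢ
      exact hon.sum_inner_products_le (s - x)
    · ext i
      simp only [Pi.add_apply, meas, Matrix.toLin'_apply, Matrix.mulVec, dotProduct, hL,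
        Matrix.transpose_apply, Module.Basis.toMatrix_apply]
      have h1 : X i = ∑ j, b.toBasis.repr (X' i) j • (b j : E) := by
        have := congrArg (fun w : W => (w : E)) (b.toBasis.sum_repr (X' i))
        simpa using this.symm
      have h2 : ⟪X i, s - x⟫ = ∑ j, b.toBasis.repr (X' i) j * ⟪(b j : E), s - x⟫ := by
        conv_lhs => rw [h1]
        rw [sum_inner]
        simp only [real_inner_smul_left]
      rw [← h2, inner_sub_right]
      ring
  refine (measure_mono hsub).trans ?_
  rw [image_add_left, measure_preimage_add, Measure.addHaar_image_linearMap, LinearMap.det_toLin',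
    hBvol, ← ENNReal.ofReal_mul (abs_nonneg _)]
  apply ENNReal.ofReal_le_ofReal
  rw [mul_comm]
  gcongr

variable [MeasurableSpace E] [BorelSpace E]

theorem lintegral_volume_image_le {m : ℕ} (hm : 1 ≤ m) (hk : 2 * m ≤ Module.finrank ℝ E)
    (hk' : Module.finrank ℝ E ≤ 16 * m) (x : E) {r : ℝ} (hr : 0 ≤ r) :
    ∫⁻ X, volume (meas X '' closedBall x r) ∂(Measure.pi fun _ : Fin (2 * m) => stdGaussian E) ≤
      ENNReal.ofReal ((16 * r) ^ (2 * m)) := by
  have hint : Integrable (fun x : E => ‖x‖) (stdGaussian E) := IsGaussian.integrable_id.norm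
  have hint2 : Integrable (fun X : Fin (2 * m) → E => ∏ i, ‖X i‖)
      (Measure.pi fun _ : Fin (2 * m) => stdGaussian E) :=
    Integrable.fintype_prod (f := fun _ x => ‖x‖) fun _ => hint
  refine (lintegral_mono fun X => volume_image_le hm hk X x hr).trans ?_
  rw [← ofReal_integral_eq_lintegral_ofReal (hint2.const_mul _)
    (ae_of_all _ fun X => by positivity)]
  apply ENNReal.ofReal_le_ofReal
  rw [integral_const_mul, integral_fintype_prod_eq_pow, Fintype.card_fin]
  have h1 : (∫ x, ‖x‖ ∂(stdGaussian E)) ^ (2 * m) ≤ (16 * (m : ℝ)) ^ m := by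
    calc (∫ x, ‖x‖ ∂(stdGaussian E)) ^ (2 * m) ≤ √(Module.finrank ℝ E) ^ (2 * m) := by
          gcongr
          exact integral_norm_stdGaussian_le
      _ = (Module.finrank ℝ E : ℝ) ^ m := by
          rw [pow_mul, Real.sq_sqrt (by positivity)]
      _ ≤ (16 * (m : ℝ)) ^ m := by
          gcongr
          exact_mod_cast hk'
  have h2 : (m : ℝ) ^ m / m.factorial ≤ 3 ^ m := by
    refine (Real.pow_div_factorial_le_exp _ (by positivity) m).trans ?_
    rw [← mul_one (m : ℝ), Real.exp_nat_mul]
    gcongr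
    exact (Real.exp_one_lt_d9.trans (by norm_num)).le
  have h3 : Real.pi ^ m ≤ 4 ^ m := by
    gcongr
    exact Real.pi_le_four
  calc r ^ (2 * m) * (Real.pi ^ m / m.factorial) * (∫ x, ‖x‖ ∂(stdGaussian E)) ^ (2 * m)
      ≤ r ^ (2 * m) * (4 ^ m / m.factorial) * (16 * (m : ℝ)) ^ m := by gcongr
    _ = r ^ (2 * m) * (4 ^ m * 16 ^ m * ((m : ℝ) ^ m / m.factorial)) := by
        rw [mul_pow]; ring
    _ ≤ r ^ (2 * m) * (4 ^ m * 16 ^ m * 4 ^ m) := by
        gcongr
        refine h2.trans ?_
        gcongr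
        norm_num
    _ = (16 * r) ^ (2 * m) := by
        rw [mul_pow, pow_mul 16, ← mul_pow, ← mul_pow]; norm_num; ring

end Crest.Agent.R322
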