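import Crest.Agent.R322.Slab

/-! Gaussian small-ball estimates and the moment bound for projected measures. -/

set_option autoImplicit false

open MeasureTheory ProbabilityTheory Metric Set
open scoped ENNReal RealInnerProductSpace

namespace Crest.Agent.R322

variable {E : Type*} [NormedAddCommGroup E] [InnerProductSpace ℝ E] [FiniteDimensional ℝ E]
  [MeasurableSpace E] [BorelSpace E]

lemma gaussianReal_le_volume (s : Set ℝ) : gaussianReal 0 1 s ≤ volume s := by
  rw [gaussianReal_apply 0 one_ne_zero s]
  calc ∫⁻ x in s, gaussianPDF 0 1 x ≤ ∫⁻ _ in s, 1 := by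
        refine lintegral_mono fun x => ?_
        rw [gaussianPDF, ← ENNReal.ofReal_one]
        apply ENNReal.ofReal_le_ofReal
        rw [gaussianPDFReal]
        have h1 : (√(2 * Real.pi * ((1 : NNReal) : ℝ)))⁻¹ ≤ 1 := by
          apply inv_le_one_of_one_le₀
          rw [Real.one_le_sqrt]
          have := Real.pi_gt_three
          simp only [NNReal.coe_one]
          linarith
        have h2 : Real.exp (-(x - 0) ^ 2 / (2 * ((1 : NNReal) : ℝ))) ≤ 1 := by
          rw [Real.exp_le_one_iff]
          simp only [NNReal.coe_one]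
          have := sq_nonneg (x - 0)
          linarith
        exact mul_le_one₀ h1 (Real.exp_pos _).le h2
    _ = volume s := by simp

lemma map_inner_stdGaussian (e : E) (he : ‖e‖ = 1) :
    (stdGaussian E).map (fun x => ⟪e, x⟫) = gaussianReal 0 1 := by
  have := IsGaussian.map_eq_gaussianReal (μ := stdGaussian E) (innerSL ℝ e)
  rw [integral_strongDual_stdGaussian, variance_dual_stdGaussian] at this
  simpa [he] using this

lemma indep_inner_perp (e : E) (he : ‖e‖ = 1) :
    IndepFun (fun x : E => ⟪e, x⟫) (fun x : E => x - ⟪e, x⟫ • e) (stdGaussian E) := by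
  have hG : HasGaussianLaw (fun x : E => (⟪e, x⟫, x - ⟪e, x⟫ • e)) (stdGaussian E) := by
    have h0 : HasGaussianLaw (id : E → E) (stdGaussian E) := IsGaussian.hasGaussianLaw_id
    exact h0.map_fun ((innerSL ℝ e).prod
      (ContinuousLinearMap.id ℝ E - (innerSL ℝ e).smulRight e))
  refine hG.indepFun_of_covariance_inner fun a y => ?_
  have h1 : (fun x : E => ⟪a, ⟪e, x⟫⟫) = fun x => ⟪a • e, x⟫ := by
    ext x; simp [inner_smul_left, mul_comm]
  have h2 : (fun x : E => ⟪y, x - ⟪e, x⟫ • e⟫) = fun x => ⟪y - ⟪y, e⟫ • e, x⟫ := by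
    ext x; simp [inner_sub_right, inner_sub_left, inner_smul_left, inner_smul_right, mul_comm]
  rw [h1, h2, ← covarianceBilin_apply_eq_cov IsGaussian.memLp_two_id, covarianceBilin_stdGaussian]
  change ⟪a • e, y - ⟪y, e⟫ • e⟫ = 0
  rw [real_inner_smul_left, inner_sub_right, real_inner_smul_right, real_inner_self_eq_norm_sq, he,
    real_inner_comm]
  ring

/-- A set invariant under translations orthogonal to `W`. -/
def Inv (W : Submodule ℝ E) (A : Set E) : Prop := ∀ x u, u ∈ Wᗮ → (x + u ∈ A ↔ x ∈ A)

theorem small_ball (W : Submodule ℝ E) {A : Set E} (hA : MeasurableSet A) (hinv : Inv W A)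
    (v : E) {η : ℝ} (hη : 0 < η) :
    stdGaussian E (A ∩ {x | |⟪x, v⟫| ≤ η}) ≤
      stdGaussian E A * (ENNReal.ofReal (2 * η) * (ENNReal.ofReal (dperp W v))⁻¹) := by
  rcases (dperp_nonneg W v).eq_or_lt with h0 | hpos
  · rw [← h0, ENNReal.ofReal_zero, ENNReal.inv_zero,
      ENNReal.mul_top (by simpa using hη)]
    by_cases hA0 : stdGaussian E A = 0
    · exact (measure_mono inter_subset_left).trans (by simp [hA0])
    · rw [ENNReal.mul_top hA0]; exact le_top
  set δ := dperp W v with hδ
  set u := v - W.starProjection v with hu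
  have huW : u ∈ Wᗮ := W.sub_starProjection_mem_orthogonal v
  have hun : ‖u‖ = δ := rfl
  set e := δ⁻¹ • u with he
  have heW : e ∈ Wᗮ := Submodule.smul_mem _ _ huW
  have hen : ‖e‖ = 1 := by
    rw [he, norm_smul, hun, norm_inv, Real.norm_of_nonneg hpos.le, inv_mul_cancel₀ hpos.ne']
  have hev : ⟪e, v⟫ = δ := by
    have h1 : ⟪u, W.starProjection v⟫ = 0 :=
      Submodule.inner_left_of_mem_orthogonal (W.starProjection_apply_mem v) huW
    have h2 : v = u + W.starProjection v := by simp [hu]
    have h3 : ⟪u, v⟫ = δ ^ 2 := by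
      conv_lhs => rw [h2]
      rw [inner_add_right, h1, add_zero, real_inner_self_eq_norm_sq, hun]
    rw [he, real_inner_smul_left, h3]
    field_simp
  clear_value e
  have hind := indep_inner_perp e hen
  have hm1 : Measurable (fun x : E => ⟪e, x⟫) := by fun_prop
  have hm2 : Measurable (fun x : E => x - ⟪e, x⟫ • e) := by fun_prop
  have hmap := hind.map_prod_eq_prod_map_map hm1.aemeasurable hm2.aemeasurable
  rw [map_inner_stdGaussian e hen] at hmap
  set T : Set (ℝ × E) := {p | p.2 ∈ A ∧ |p.1 * δ + ⟪p.2, v⟫| ≤ η} with hT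
  have hTm : MeasurableSet T := by
    apply MeasurableSet.inter (measurable_snd hA)
    exact measurableSet_le (f := fun p : ℝ × E => |p.1 * δ + ⟪p.2, v⟫|) (by fun_prop)
      measurable_const
  have hYA : (fun x : E => x - ⟪e, x⟫ • e) ⁻¹' A = A := by
    ext x
    rw [mem_preimage, sub_eq_add_neg]
    exact hinv x _ (Submodule.neg_mem _ (Submodule.smul_mem _ _ heW))
  have hpre : A ∩ {x | |⟪x, v⟫| ≤ η} = (fun x : E => (⟪e, x⟫, x - ⟪e, x⟫ • e)) ⁻¹' T := by
    ext x
    have h1 : x - ⟪e, x⟫ • e ∈ A ↔ x ∈ A := by
      have := Set.ext_iff.1 hYA x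
      rwa [mem_preimage] at this
    have h2 : ⟪e, x⟫ * δ + ⟪x - ⟪e, x⟫ • e, v⟫ = ⟪x, v⟫ := by
      rw [inner_sub_left, real_inner_smul_left, hev]; ring
    simp only [hT, mem_inter_iff, mem_ofPred_eq, mem_preimage, h1, h2]
  rw [hpre, ← Measure.map_apply (hm1.prodMk hm2) hTm, hmap, Measure.prod_apply_symm hTm]
  calc ∫⁻ y, gaussianReal 0 1 ((fun t => (t, y)) ⁻¹' T)
          ∂(stdGaussian E).map (fun x : E => x - ⟪e, x⟫ • e)
      ≤ ∫⁻ y, A.indicator (fun _ => ENNReal.ofReal (2 * η) * (ENNReal.ofReal δ)⁻¹) y
          ∂(stdGaussian E).map (fun x : E => x - ⟪e, x⟫ • e) := by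
        refine lintegral_mono fun y => ?_
        by_cases hy : y ∈ A
        · rw [indicator_of_mem hy]
          refine (gaussianReal_le_volume _).trans ?_
          have : (fun t => (t, y)) ⁻¹' T ⊆ Icc ((-η - ⟪y, v⟫) / δ) ((η - ⟪y, v⟫) / δ) := by
            intro t ht
            have h := ht.2
            simp only at h
            rw [abs_le] at h
            constructor
            · rw [div_le_iff₀ hpos]; linarith [h.1]
            · rw [le_div_iff₀ hpos]; linarith [h.2]
          refine (measure_mono this).trans ?_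
          rw [Real.volume_Icc, ← ENNReal.ofReal_inv_of_pos hpos,
            ← ENNReal.ofReal_mul (by positivity)]
          apply le_of_eq
          congr 1
          field_simp
          ring
        · rw [indicator_of_notMem hy]
          have : (fun t => (t, y)) ⁻¹' T = ∅ := by
            ext t
            simp only [mem_preimage, mem_empty_iff_false, iff_false]
            exact fun h => hy h.1
          simp [this]
    _ = stdGaussian E A * (ENNReal.ofReal (2 * η) * (ENNReal.ofReal δ)⁻¹) := by
        rw [lintegral_indicator hA, setLIntegral_const, Measure.map_apply hm2 hA, hYA, mul_comm]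

/-- The box of signals whose measurements are `η`-close to those of `a`. -/
def box {k : ℕ} (X : Fin k → E) (a : E) (η : ℝ) : Set E := {s | ∀ i, |⟪X i, s - a⟫| ≤ η}

lemma measurableSet_box_graph (k : ℕ) (η : ℝ) :
    MeasurableSet {p : ((Fin k → E) × E) × E | p.2 ∈ box p.1.1 p.1.2 η} := by
  have : {p : ((Fin k → E) × E) × E | p.2 ∈ box p.1.1 p.1.2 η} =
      ⋂ i, {p : ((Fin k → E) × E) × E | |⟪p.1.1 i, p.2 - p.1.2⟫| ≤ η} := by
    ext p; simp [box]
  rw [this]
  exact MeasurableSet.iInter fun i => measurableSet_le (by fun_prop) measurable_const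

lemma measurable_measure_box (ν : Measure E) [SFinite ν] (k : ℕ) (η : ℝ) :
    Measurable fun p : (Fin k → E) × E => ν (box p.1 p.2 η) :=
  measurable_measure_prodMk_left (ν := ν) (measurableSet_box_graph k η)

/-- The moment bound (Drury-type estimate). -/
theorem moment_le (ν : Measure E) [SFinite ν] {k : ℕ} {N : ℝ} (hN : 0 ≤ N)
    (hν : Frost ν (2 * k) N) (a : E) {R : ℝ} (hR : 0 < R) (hsupp : ν (closedBall a R)ᶜ = 0)
    {η : ℝ} (hη : 0 < η) (m : ℕ) :
    ∀ (W : Submodule ℝ E) (A : Set E), Module.finrank ℝ W + m ≤ k → MeasurableSet A → Inv W A →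
      ∫⁻ X in Set.pi univ (fun _ : Fin k => A), ν (box X a η) ^ m
          ∂(Measure.pi fun _ : Fin k => stdGaussian E) ≤
        stdGaussian E A ^ k *
          (ENNReal.ofReal (2 * η) ^ k * ENNReal.ofReal (16 ^ k * N * R ^ k)) ^ m := by
  set Γ := (Measure.pi fun _ : Fin k => stdGaussian E) with hΓ
  set K := ENNReal.ofReal (2 * η) ^ k * ENNReal.ofReal (16 ^ k * N * R ^ k) with hK
  have hbm : Measurable fun X : Fin k → E => ν (box X a η) :=
    (measurable_measure_box ν k η).comp (measurable_id.prodMk measurable_const)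
  induction m with
  | zero =>
    intro W A _ _ _
    simp [hΓ, Measure.pi_pi]
  | succ m ih =>
    intro W A hW hA hinv
    have hgraph : MeasurableSet {p : (Fin k → E) × E | p.2 ∈ box p.1 a η} :=
      ((measurable_fst.prodMk measurable_const).prodMk measurable_snd) (measurableSet_box_graph k η)
    have hPA : MeasurableSet (Set.pi univ (fun _ : Fin k => A)) :=
      MeasurableSet.univ_pi fun _ => hA
    calc ∫⁻ X in Set.pi univ (fun _ : Fin k => A), ν (box X a η) ^ (m + 1) ∂Γ
        = ∫⁻ X in Set.pi univ (fun _ : Fin k => A), ∫⁻ s,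
            {p : (Fin k → E) × E | p.2 ∈ box p.1 a η}.indicator
              (fun p => ν (box p.1 a η) ^ m) (X, s) ∂ν ∂Γ := by
          congr 1 with X
          have hbX : MeasurableSet (box X a η) :=
            (measurable_const.prodMk measurable_id) hgraph
          have : (fun s => {p : (Fin k → E) × E | p.2 ∈ box p.1 a η}.indicator
              (fun p => ν (box p.1 a η) ^ m) (X, s)) =
              (box X a η).indicator (fun _ => ν (box X a η) ^ m) := by
            ext s
            by_cases hs : s ∈ box X a η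
            · rw [indicator_of_mem hs, indicator_of_mem (by exact hs)]
            · rw [indicator_of_notMem hs, indicator_of_notMem (by exact hs)]
          rw [this, lintegral_indicator hbX, setLIntegral_const, pow_succ]
      _ = ∫⁻ s, ∫⁻ X in Set.pi univ (fun _ : Fin k => A),
            {p : (Fin k → E) × E | p.2 ∈ box p.1 a η}.indicator
              (fun p => ν (box p.1 a η) ^ m) (X, s) ∂Γ ∂ν := by
          apply lintegral_lintegral_swap
          exact (((hbm.comp measurable_fst).pow_const m).indicator hgraph).aemeasurable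
      _ ≤ ∫⁻ s, stdGaussian E A ^ k * ENNReal.ofReal (2 * η) ^ k * K ^ m *
            (ENNReal.ofReal (dperp W (s - a)))⁻¹ ^ k ∂ν := by
          refine lintegral_mono fun s => ?_
          set S : Set E := {x | |⟪x, s - a⟫| ≤ η} with hS
          have hSm : MeasurableSet S := measurableSet_le (by fun_prop) measurable_const
          have hPS : MeasurableSet (Set.pi univ (fun _ : Fin k => S)) :=
            MeasurableSet.univ_pi fun _ => hSm
          have h1 : (fun X => {p : (Fin k → E) × E | p.2 ∈ box p.1 a η}.indicator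
              (fun p => ν (box p.1 a η) ^ m) (X, s)) =
              (Set.pi univ (fun _ : Fin k => S)).indicator (fun X => ν (box X a η) ^ m) := by
            ext X
            by_cases hs : s ∈ box X a η
            · rw [indicator_of_mem (by exact hs), 
                indicator_of_mem (show X ∈ Set.pi univ (fun _ : Fin k => S) from fun i _ => hs i)]
            · rw [indicator_of_notMem (by exact hs),
                indicator_of_notMem (show X ∉ Set.pi univ (fun _ : Fin k => S) from
                  fun h => hs fun i => h i (mem_univ i))]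
          rw [h1, lintegral_indicator hPS, Measure.restrict_restrict hPS, ← Set.pi_inter_distrib]
          have hW' : Module.finrank ℝ ↥(W ⊔ Submodule.span ℝ {s - a}) + m ≤ k := by
            have h2 := Submodule.finrank_add_le_finrank_add_finrank W (Submodule.span ℝ {s - a})
            have h3 : Module.finrank ℝ (Submodule.span ℝ ({s - a} : Set E)) ≤ 1 := by
              simpa using finrank_span_le_card (R := ℝ) ({s - a} : Set E)
            omega
          have hinv' : Inv (W ⊔ Submodule.span ℝ {s - a}) (S ∩ A) := by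
            intro x u hu
            have hu1 : u ∈ Wᗮ := Submodule.orthogonal_le le_sup_left hu
            have hu2 : ⟪u, s - a⟫ = 0 := by
              apply Submodule.inner_left_of_mem_orthogonal _ hu
              exact Submodule.mem_sup_right (Submodule.mem_span_singleton_self _)
            simp only [mem_inter_iff, hS, mem_ofPred_eq, inner_add_left, hu2, add_zero,
              hinv x u hu1]
          refine (ih _ _ hW' (hSm.inter hA) hinv').trans ?_
          have h4 := small_ball W hA hinv (s - a) hη
          rw [inter_comm] at h4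
          calc stdGaussian E (S ∩ A) ^ k * K ^ m
              ≤ (stdGaussian E A * (ENNReal.ofReal (2 * η) *
                  (ENNReal.ofReal (dperp W (s - a)))⁻¹)) ^ k * K ^ m := by gcongr
            _ = _ := by rw [mul_pow, mul_pow]; ring
      _ ≤ stdGaussian E A ^ k * K ^ (m + 1) := by
          rw [lintegral_const_mul _ (by
            apply Measurable.pow_const
            apply Measurable.inv
            exact ENNReal.measurable_ofReal.comp
              ((continuous_dperp W).comp (by fun_prop)).measurable)]
          have h5 := riesz_le ν hN hν W (by omega) a hR hsupp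
          calc _ ≤ stdGaussian E A ^ k * ENNReal.ofReal (2 * η) ^ k * K ^ m *
                ENNReal.ofReal (16 ^ k * N * R ^ k) := by gcongr
            _ = _ := by rw [hK]; ring

theorem moment_le' (ν : Measure E) [SFinite ν] {k : ℕ} {N : ℝ} (hN : 0 ≤ N)
    (hν : Frost ν (2 * k) N) (a : E) {R : ℝ} (hR : 0 < R) (hsupp : ν (closedBall a R)ᶜ = 0)
    {η : ℝ} (hη : 0 < η) :
    ∫⁻ X, ν (box X a η) ^ k ∂(Measure.pi fun _ : Fin k => stdGaussian E) ≤
        (ENNReal.ofReal (2 * η) ^ k * ENNReal.ofReal (16 ^ k * N * R ^ k)) ^ k := by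
  have := moment_le ν hN hν a hR hsupp hη k ⊥ univ (by simp) MeasurableSet.univ
    (fun _ _ _ => by simp)
  simpa using this

lemma integral_norm_sq_stdGaussian :
    ∫ x, ‖x‖ ^ 2 ∂(stdGaussian E) = Module.finrank ℝ E := by
  set b := stdOrthonormalBasis ℝ E
  have h1 : ∀ x : E, ‖x‖ ^ 2 = ∑ i, ⟪b i, x⟫ ^ 2 := fun x => (b.sum_sq_inner_right x).symm
  have h2 : ∀ i, MemLp (fun x : E => ⟪b i, x⟫) 2 (stdGaussian E) := fun i =>
    (innerSL ℝ (b i)).comp_memLp' IsGaussian.memLp_two_id
  simp_rw [h1]
  rw [integral_finsetSum _ fun i _ => (h2 i).integrable_sq]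
  have h3 : ∀ i, ∫ x, ⟪b i, x⟫ ^ 2 ∂(stdGaussian E) = 1 := by
    intro i
    have h4 := variance_dual_stdGaussian (E := E) (innerSL ℝ (b i))
    rw [variance_of_integral_eq_zero (innerSL ℝ (b i)).continuous.aemeasurable
      (integral_strongDual_stdGaussian _)] at h4
    simpa [b.orthonormal.1 i] using h4
  simp [h3]

lemma integral_norm_stdGaussian_le :
    ∫ x, ‖x‖ ∂(stdGaussian E) ≤ √(Module.finrank ℝ E) := by
  have hm : MemLp (fun x : E => ‖x‖) 2 (stdGaussian E) := IsGaussian.memLp_two_id.norm
  apply Real.le_sqrt_of_sq_le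
  rw [← integral_norm_sq_stdGaussian]
  have := variance_nonneg (fun x : E => ‖x‖) (stdGaussian E)
  rw [variance_eq_sub hm] at this
  simpa using this

end Crest.Agent.R322
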