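import Crest.Agent.R322.Run
import Crest.Prelude.Def_StreamLearn

/-! The randomized learners of the prelude as abstract one-pass machines. -/

set_option autoImplicit false

open MeasureTheory ProbabilityTheory Metric Set Filter
open scoped ENNReal NNReal RealInnerProductSpace Topology
open Crest.StreamLearn

namespace Crest.Agent.R322

variable {d T M : ℕ} (L : RLearner d T M)

/-- extended states: memory state and stopping index -/
def XSt : Type := L.St × Option ℕ

instance : MeasurableSpace (XSt L) := ⊤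
instance : MeasurableSingletonClass (XSt L) := ⟨fun _ => trivial⟩
instance : Countable (XSt L) := by
  have := L.fin
  unfold XSt
  infer_instance

/-- one step of the learner on extended states -/
noncomputable def stepL (ω : L.Ω) (t : ℕ) (st : XSt L) (x : E d) (y : ℝ) : XSt L :=
  if h : t < T then
    (if st.2.isSome then st else
      if (L.trans ⟨t, h⟩ ω st.1 x y).2 then ((L.trans ⟨t, h⟩ ω st.1 x y).1, some (t + 1))
      else ((L.trans ⟨t, h⟩ ω st.1 x y).1, none))
  else st

/-- initial extended state -/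
def initL (ω : L.Ω) : XSt L := (L.init ω, if L.stopFirst ω then some 0 else none)

/-- output attached to an extended state -/
def outL (ω : L.Ω) (st : XSt L) : E d := L.out (st.2.getD T) ω st.1

lemma run_eq (ω : L.Ω) (s : E d) (xs : Fin T → E d) :
    L.run ω s xs = run (stepL L ω) T 0 (initL L ω) xs (meas xs s) := by
  rw [← foldl_eq_run]
  unfold RLearner.run initL
  congr 1
  ext1 st
  ext1 i
  simp only [stepL, zero_add, Fin.is_lt, dif_pos, meas]
  rfl

lemma output_eq (ω : L.Ω) (s : E d) (xs : Fin T → E d) :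
    L.output ω s xs = outL L ω (run (stepL L ω) T 0 (initL L ω) xs (meas xs s)) := by
  rw [RLearner.output, run_eq]
  rfl

lemma measurable_stepL (t : ℕ) (q : XSt L) :
    @Measurable (L.Ω × (E d × ℝ)) (XSt L) (@Prod.instMeasurableSpace _ _ L.mΩ _) _
      fun p => stepL L p.1 t q p.2.1 p.2.2 := by
  let _ := L.mΩ
  let _ : MeasurableSpace L.St := ⊤
  have := L.fin
  unfold stepL
  by_cases h : t < T
  · simp only [h, dif_pos]
    by_cases hq : q.2.isSome
    · simp only [hq, if_true]; exact measurable_const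
    · simp only [hq]
      obtain ⟨h1, h2⟩ := L.trans_measurable ⟨t, h⟩ q.1
      have h3 : Measurable fun z : L.St × Bool =>
          (show XSt L from if z.2 then (z.1, some (t + 1)) else (z.1, none)) :=
        Measurable.of_discrete
      exact h3.comp (h1.prodMk h2)
  · simp only [h, dif_neg, not_false_eq_true]; exact measurable_const

lemma measurable_initL : @Measurable L.Ω (XSt L) L.mΩ _ (initL L) := by
  let _ := L.mΩ
  let _ : MeasurableSpace L.St := ⊤
  have := L.fin
  have h3 : Measurable fun z : L.St × Bool =>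
      (show XSt L from (z.1, if z.2 then some 0 else none)) := Measurable.of_discrete
  exact h3.comp (L.init_measurable.prodMk L.stopFirst_measurable)

lemma measurable_outL : @Measurable (XSt L × L.Ω) (E d) (@Prod.instMeasurableSpace _ _ _ L.mΩ) _
    fun p => outL L p.2 p.1 := by
  let _ := L.mΩ
  exact measurable_from_prod_countable_right fun q => L.out_measurable (q.2.getD T) q.1

lemma run_snd_mem (ω : L.Ω) (n : ℕ) : ∀ (t : ℕ) (q : XSt L) (X : Fin n → E d) (y : Fin n → ℝ),
    (run (stepL L ω) n t q X y).2 ∈ insert q.2 ((Finset.Ioc t (t + n)).image some) := by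
  induction n with
  | zero => intro t q X y; simp [run]
  | succ n ih =>
    intro t q X y
    have h1 := ih (t + 1) (stepL L ω t q (X 0) (y 0)) (Fin.tail X) (Fin.tail y)
    have h2 : (stepL L ω t q (X 0) (y 0)).2 = q.2 ∨
        (stepL L ω t q (X 0) (y 0)).2 = some (t + 1) := by
      unfold stepL
      split_ifs with h h' h''
      · exact Or.inl rfl
      · exact Or.inr rfl
      · left
        simpa using (Option.not_isSome_iff_eq_none.1 h').symm
      · exact Or.inl rfl
    rw [run]
    simp only [Finset.mem_insert, Finset.mem_image, Finset.mem_Ioc] at h1 ⊢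
    rcases h1 with h1 | ⟨a, ha, h1⟩
    · rcases h2 with h2 | h2
      · exact Or.inl (h1.trans h2)
      · exact Or.inr ⟨t + 1, ⟨by omega, by omega⟩, (h1.trans h2).symm⟩
    · exact Or.inr ⟨a, ⟨by omega, by omega⟩, h1⟩

lemma exists_reach (ω : L.Ω) (n t : ℕ) (q : XSt L) :
    ∃ Q : Finset (XSt L), Q.card ≤ 2 ^ M * (n + 1) ∧ ∀ X y, run (stepL L ω) n t q X y ∈ Q := by
  let _ := L.fin
  refine ⟨(Finset.univ : Finset L.St) ×ˢ insert q.2 ((Finset.Ioc t (t + n)).image some), ?_,
    fun X y => Finset.mem_product.2 ⟨Finset.mem_univ _, run_snd_mem L ω n t q X y⟩⟩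
  refine (Finset.card_product _ _).trans_le ?_
  rw [Finset.card_univ]
  apply Nat.mul_le_mul L.card_le
  refine (Finset.card_insert_le _ _).trans ?_
  have := Finset.card_image_le (s := Finset.Ioc t (t + n)) (f := some)
  simp only [Nat.card_Ioc] at this
  omega

lemma mem_closedBall_of_arccos {u s : E d} (hu : ‖u‖ = 1) (hs : ‖s‖ = 1) {ε : ℝ}
    (h : Real.arccos ⟪u, s⟫ ≤ ε) : s ∈ closedBall u ε := by
  have h1 : |⟪u, s⟫| ≤ 1 := by simpa [hu, hs] using abs_real_inner_le_norm u s
  rw [abs_le] at h1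
  have h2 := Real.cos_arccos h1.1 h1.2
  have h3 := Real.one_sub_sq_div_two_le_cos (x := Real.arccos ⟪u, s⟫)
  have h4 := Real.arccos_nonneg ⟪u, s⟫
  rw [mem_closedBall, dist_comm, dist_eq_norm]
  apply le_of_sq_le_sq _ (h4.trans h) |>.trans le_rfl
  rw [norm_sub_sq_real, hu, hs]
  nlinarith

/-- The success probability is bounded by any bound valid for each seed. -/
theorem success_le [Nontrivial (E d)] (ε : ℝ) (C : ℝ≥0∞)
    (hC : ∀ ω : L.Ω, ∫⁻ X, sph (E d) {s | s ∈ closedBall
      (outL L ω (run (stepL L ω) T 0 (initL L ω) X (meas X s))) ε}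
        ∂(Measure.pi fun _ : Fin T => stdGaussian (E d)) ≤ C)
    (h : 2 / 3 ≤ L.successProb ε) : ENNReal.ofReal (2 / 3) ≤ C := by
  let _ := L.mΩ
  have := L.prob
  set Γ := (Measure.pi fun _ : Fin T => stdGaussian (E d)) with hΓ
  set S : Set (E d × (L.Ω × (Fin T → E d))) := {p | p.1 ∈ closedBall
      (outL L p.2.1 (run (stepL L p.2.1) T 0 (initL L p.2.1) p.2.2 (meas p.2.2 p.1))) ε} with hS
  have hSm : MeasurableSet S := by
    have h1 : Measurable fun p : E d × (L.Ω × (Fin T → E d)) =>
        run (stepL L p.2.1) T 0 (initL L p.2.1) p.2.2 (meas p.2.2 p.1) :=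
      measurable_run_param (stepL L) (measurable_stepL L) _ measurable_snd.fst T 0 _ _ _
        ((measurable_initL L).comp measurable_snd.fst) measurable_snd.snd
        ((measurable_meas T).comp (measurable_snd.snd.prodMk measurable_fst))
    exact measurableSet_le (f := fun p : E d × (L.Ω × (Fin T → E d)) => dist p.1
      (outL L p.2.1 (run (stepL L p.2.1) T 0 (initL L p.2.1) p.2.2 (meas p.2.2 p.1))))
      (measurable_fst.dist ((measurable_outL L).comp (h1.prodMk measurable_snd.fst)))
      measurable_const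
  have hf : Measurable (Prod.map Subtype.val id :
      Sphere d × (L.Ω × (Fin T → E d)) → E d × (L.Ω × (Fin T → E d))) :=
    measurable_subtype_coe.prodMap measurable_id
  refine (ENNReal.ofReal_le_of_le_toReal h).trans ?_
  calc ((unif (E d)).prod (L.ρ.prod Γ)) {p : Sphere d × (L.Ω × (Fin T → E d)) |
          Real.arccos (inner ℝ (L.output p.2.1 p.1 p.2.2) (p.1 : E d)) ≤ ε}
      ≤ ((unif (E d)).prod (L.ρ.prod Γ)) (Prod.map Subtype.val id ⁻¹' S) := by
        apply measure_mono
        intro p hp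
        have := mem_closedBall_of_arccos (L.out_unit _ _ _) (by simp) hp
        change (p.1 : E d) ∈ closedBall (L.output p.2.1 p.1 p.2.2) ε at this
        rw [output_eq] at this
        exact this
    _ = ((sph (E d)).prod (L.ρ.prod Γ)) S := by
        rw [← Measure.map_apply hf hSm, ← Measure.map_prod_map _ _ measurable_subtype_coe
          measurable_id, Measure.map_id]
        rfl
    _ = ∫⁻ ω, ∫⁻ X, sph (E d) ((fun s => (s, (ω, X))) ⁻¹' S) ∂Γ ∂L.ρ := by
        rw [Measure.prod_apply_symm hSm, lintegral_prod _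
          (measurable_measure_prodMk_right hSm).aemeasurable]
    _ ≤ ∫⁻ _, C ∂L.ρ := lintegral_mono fun ω => hC ω
    _ = C := by simp

theorem lt_four_mul (hd : 2 ≤ d) {ε : ℝ} (hε : ε ≤ 1 / 10) (h : 2 / 3 ≤ L.successProb ε) :
    d < 4 * T := by
  let _ := L.mΩ
  have : Nonempty (Fin d) := ⟨⟨0, by omega⟩⟩
  by_contra hc
  push Not at hc
  have h1 := success_le L ε (ENNReal.ofReal (3 / 5)) (fun ω => by
    refine le_trans (lintegral_mono fun X => few_samples (by simpa using hc) (by simpa using hd) X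
      (fun y => outL L ω (run (stepL L ω) T 0 (initL L ω) X y)) ?_ hε) (by simp)
    refine (Measurable.of_discrete (f := outL L ω)).comp ?_
    exact measurable_run _ (fun t q => (measurable_stepL L t q).comp measurable_prodMk_left)
      _ _ _ _ _ measurable_const measurable_const measurable_id) h
  rw [ENNReal.ofReal_le_ofReal_iff (by norm_num)] at h1
  norm_num at h1

/-- terminal reward -/
noncomputable def gL (ε : ℝ) (ω : L.Ω) (q : XSt L) : E d → ℝ≥0∞ :=
  (closedBall (outL L ω q) ε).indicator 1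

lemma measurable_gL (ε : ℝ) (ω : L.Ω) (q : XSt L) : Measurable (gL L ε ω q) :=
  measurable_one.indicator measurableSet_closedBall

lemma measurable_stepL' (ω : L.Ω) (t : ℕ) (q : XSt L) :
    Measurable fun p : E d × ℝ => stepL L ω t q p.1 p.2 := by
  let _ := L.mΩ
  exact (measurable_stepL L t q).comp measurable_prodMk_left

lemma measurable_runL (ω : L.Ω) : Measurable fun p : (Fin T → E d) × E d =>
      run (stepL L ω) T 0 (initL L ω) p.1 (meas p.1 p.2) :=
  measurable_run _ (measurable_stepL' L ω) _ _ _ _ _ measurable_const measurable_fst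
    (measurable_meas T)

lemma measurable_comp_countable {α β γ ι : Type*} [MeasurableSpace α] [MeasurableSpace β]
    [MeasurableSpace γ] [MeasurableSpace ι] [Countable ι] [MeasurableSingletonClass ι]
    (G : ι → β → γ) (hG : ∀ q, Measurable (G q)) {F : α → ι} (hF : Measurable F) {s : α → β}
    (hs : Measurable s) : Measurable fun a => G (F a) (s a) :=
  (measurable_from_prod_countable_right (f := fun p : ι × β => G p.1 p.2) hG).comp (hF.prodMk hs)

lemma measure_eq_lintegral_indicator {α : Type*} [MeasurableSpace α] (μ : Measure α)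
    (A : α → Set α) (hm : MeasurableSet {s | s ∈ A s}) :
    μ {s | s ∈ A s} = ∫⁻ s, (A s).indicator 1 s ∂μ := by
  rw [← lintegral_indicator_one hm]
  rfl

lemma measure_eq_lintegral_gL (ε : ℝ) (ω : L.Ω) (F : E d → XSt L) (hF : Measurable F) :
    sph (E d) {s | s ∈ closedBall (outL L ω (F s)) ε} = ∫⁻ s, gL L ε ω (F s) s ∂(sph (E d)) :=
  measure_eq_lintegral_indicator (sph (E d)) (fun s => closedBall (outL L ω (F s)) ε)
    (measurableSet_le (f := fun s => dist s (outL L ω (F s)))
      (measurable_id.dist ((Measurable.of_discrete (f := outL L ω)).comp hF)) measurable_const)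

lemma val_eq_gL (ε : ℝ) (ω : L.Ω) (e : ℕ) (q : XSt L) (s : E d) :
    val (stepL L ω) (gL L ε ω) e (0 + T) q s = gL L ε ω q s :=
  val_of_id (stepL L ω) _ T (fun t ht q x y => by rw [stepL, dif_neg (not_lt.2 ht)]) e _
    (by omega) q s

lemma lintegral_eq_val (ε : ℝ) (ω : L.Ω) (e : ℕ) :
    ∫⁻ X, sph (E d) {s | s ∈ closedBall
      (outL L ω (run (stepL L ω) T 0 (initL L ω) X (meas X s))) ε}
        ∂(Measure.pi fun _ : Fin T => stdGaussian (E d)) =
      ∫⁻ s, val (stepL L ω) (gL L ε ω) (e + T) 0 (initL L ω) s ∂(sph (E d)) := by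
  have h1 : ∀ X : Fin T → E d, sph (E d) {s | s ∈ closedBall
      (outL L ω (run (stepL L ω) T 0 (initL L ω) X (meas X s))) ε} =
      ∫⁻ s, gL L ε ω (run (stepL L ω) T 0 (initL L ω) X (meas X s)) s ∂(sph (E d)) := fun X =>
    measure_eq_lintegral_gL L ε ω (fun s => run (stepL L ω) T 0 (initL L ω) X (meas X s))
      ((measurable_runL L ω).comp measurable_prodMk_left)
  have h2 : Measurable fun p : (Fin T → E d) × E d =>
      gL L ε ω (run (stepL L ω) T 0 (initL L ω) p.1 (meas p.1 p.2)) p.2 :=
    measurable_comp_countable (gL L ε ω) (measurable_gL L ε ω) (measurable_runL L ω) measurable_snd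
  simp_rw [h1, val_add _ (measurable_stepL' L ω), val_eq_gL]
  exact lintegral_lintegral_swap h2.aemeasurable

lemma lintegral_le_of_frost {f : E d → ℝ≥0∞} {g : ℕ} {N : ℝ}
    (hF : Frost ((sph (E d)).withDensity f) g N) :
    ∫⁻ s, f s ∂(sph (E d)) ≤ ENNReal.ofReal N := by
  have h := hF 0 1 one_pos
  rwa [one_pow, mul_one, withDensity_apply _ measurableSet_closedBall,
    Measure.restrict_eq_self_of_ae_mem] at h
  refine measure_mono_null ?_ sph_compl_sphere
  intro s hs hs'
  exact hs (sphere_subset_closedBall hs')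

theorem main_bound {m : ℕ} (hm : 1 ≤ m) (h8 : 8 * m ≤ d) (h16 : d ≤ 16 * m) {Λ : ℝ} (hΛ : 1 ≤ Λ)
    (hM : ((2 ^ M * (2 * m + 1) : ℕ) : ℝ) ≤ Λ ^ (2 * m)) {ε : ℝ} (hε : 0 < ε) (hε1 : ε ≤ 1)
    (b : ℕ) (hb : T ≤ b * (2 * m)) (h : 2 / 3 ≤ L.successProb ε) :
    2 / 3 ≤ (Λ * 1024 ^ (2 * m)) ^ b * (8 ^ d * ε ^ (2 * m)) := by
  have : Nonempty (Fin d) := ⟨⟨0, by omega⟩⟩
  have hd : Module.finrank ℝ (E d) = d := finrank_euclideanSpace_fin
  have h1 := success_le L ε
    (ENNReal.ofReal ((Λ * 1024 ^ (2 * m)) ^ b * (8 ^ d * ε ^ (2 * m)))) (fun ω => ?_) h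
  · exact (ENNReal.ofReal_le_ofReal_iff (by positivity)).1 h1
  have hcap : ∀ q, Frost ((sph (E d)).withDensity (gL L ε ω q)) (2 * (2 * m))
      (8 ^ d * ε ^ (2 * m)) := by
    intro q
    have := frost_cap (E := E d) (k := 2 * m) (by omega) (outL L ω q) hε hε1
    rw [hd] at this
    exact this
  have hreach : ∀ t q, ∃ Q : Finset (XSt L), (Q.card : ℝ) ≤ Λ ^ (2 * m) ∧
      ∀ X y, run (stepL L ω) (2 * m) t q X y ∈ Q := by
    intro t q
    obtain ⟨Q, hQ1, hQ2⟩ := exists_reach L ω (2 * m) t q
    exact ⟨Q, le_trans (Nat.cast_le.2 hQ1) hM, hQ2⟩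
  have hF := frost_val (sph (E d)) hm (by omega) (by omega) (stepL L ω) (measurable_stepL' L ω)
    (gL L ε ω) (measurable_gL L ε ω) (by positivity) hcap hΛ hreach b 0 (initL L ω)
  obtain ⟨e, he⟩ := Nat.exists_eq_add_of_le' hb
  rw [lintegral_eq_val L ε ω e, ← he]
  exact lintegral_le_of_frost hF

end Crest.Agent.R322
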