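import Crest.Agent.R322.Sphere

/-! Abstract one-pass machines and the block recursion. -/

set_option autoImplicit false

open MeasureTheory ProbabilityTheory Metric Set Filter
open scoped ENNReal NNReal RealInnerProductSpace Topology

namespace Crest.Agent.R322

variable {E : Type*} [NormedAddCommGroup E] [InnerProductSpace ℝ E] [FiniteDimensional ℝ E]
  [MeasurableSpace E] [BorelSpace E] {ι : Type*}

/-- state after reading `n` pairs from time `t` on -/
def run (step : ℕ → ι → E → ℝ → ι) : (n : ℕ) → ℕ → ι → (Fin n → E) → (Fin n → ℝ) → ι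
  | 0, _, q, _, _ => q
  | n + 1, t, q, X, y => run step n (t + 1) (step t q (X 0) (y 0)) (Fin.tail X) (Fin.tail y)

/-- expected terminal reward -/
noncomputable def val (step : ℕ → ι → E → ℝ → ι) (g : ι → E → ℝ≥0∞) : ℕ → ℕ → ι → E → ℝ≥0∞
  | 0, _, q, s => g q s
  | n + 1, t, q, s => ∫⁻ x, val step g n (t + 1) (step t q x ⟪x, s⟫) s ∂(stdGaussian E)

omit [NormedAddCommGroup E] [InnerProductSpace ℝ E] [FiniteDimensional ℝ E]
  [MeasurableSpace E] [BorelSpace E] in
lemma foldl_eq_run (step : ℕ → ι → E → ℝ → ι) (n : ℕ) :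
    ∀ (t : ℕ) (q : ι) (X : Fin n → E) (y : Fin n → ℝ),
      (List.finRange n).foldl (fun st (i : Fin n) => step (t + i) st (X i) (y i)) q =
        run step n t q X y := by
  induction n with
  | zero => intro t q X y; simp [run]
  | succ n ih =>
    intro t q X y
    rw [List.finRange_succ, List.foldl_cons, List.foldl_map, run, ← ih]
    simp only [Fin.val_succ, Fin.val_zero, add_zero, Fin.tail]
    congr 1
    ext st i
    rw [add_assoc, add_comm 1]

variable [MeasurableSpace ι] [Countable ι] [MeasurableSingletonClass ι]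

omit [NormedAddCommGroup E] [InnerProductSpace ℝ E] [FiniteDimensional ℝ E] [BorelSpace E] in
lemma measurable_run_param {Ω α : Type*} [MeasurableSpace Ω] [MeasurableSpace α]
    (step : Ω → ℕ → ι → E → ℝ → ι)
    (hstep : ∀ t q, Measurable fun p : Ω × (E × ℝ) => step p.1 t q p.2.1 p.2.2)
    (ω : α → Ω) (hω : Measurable ω) (n : ℕ) :
    ∀ (t : ℕ) (q : α → ι) (X : α → Fin n → E) (y : α → Fin n → ℝ), Measurable q → Measurable X →
      Measurable y → Measurable fun a => run (step (ω a)) n t (q a) (X a) (y a) := by
  induction n with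
  | zero => intro t q X y hq _ _; simpa [run] using hq
  | succ n ih =>
    intro t q X y hq hX hy
    simp only [run]
    apply ih
    · have h1 : Measurable fun p : ι × (Ω × (E × ℝ)) => step p.2.1 t p.1 p.2.2.1 p.2.2.2 :=
        measurable_from_prod_countable_right fun q => hstep t q
      exact h1.comp (hq.prodMk (hω.prodMk (((measurable_pi_apply 0).comp hX).prodMk
        ((measurable_pi_apply 0).comp hy))))
    · exact measurable_pi_lambda _ fun i => (measurable_pi_apply i.succ).comp hX
    · exact measurable_pi_lambda _ fun i => (measurable_pi_apply i.succ).comp hy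

omit [NormedAddCommGroup E] [InnerProductSpace ℝ E] [FiniteDimensional ℝ E] [BorelSpace E] in
lemma measurable_run {α : Type*} [MeasurableSpace α] (step : ℕ → ι → E → ℝ → ι)
    (hstep : ∀ t q, Measurable fun p : E × ℝ => step t q p.1 p.2) (n t : ℕ)
    (q : α → ι) (X : α → Fin n → E) (y : α → Fin n → ℝ) (hq : Measurable q) (hX : Measurable X)
    (hy : Measurable y) : Measurable fun a => run step n t (q a) (X a) (y a) :=
  measurable_run_param (Ω := Unit) (fun _ => step)
    (fun t q => (hstep t q).comp measurable_snd) (fun _ => ()) measurable_const n t q X y hq hX hy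

lemma measurable_val (step : ℕ → ι → E → ℝ → ι)
    (hstep : ∀ t q, Measurable fun p : E × ℝ => step t q p.1 p.2)
    (g : ι → E → ℝ≥0∞) (hg : ∀ q, Measurable (g q)) (n : ℕ) :
    ∀ t q, Measurable (val step g n t q) := by
  induction n with
  | zero => intro t q; exact hg q
  | succ n ih =>
    intro t q
    have h1 : Measurable fun p : ι × E => val step g n (t + 1) p.1 p.2 :=
      measurable_from_prod_countable_right fun q => ih (t + 1) q
    have h2 : Measurable fun p : E × E => step t q p.2 ⟪p.2, p.1⟫ :=
      (hstep t q).comp (measurable_snd.prodMk (by fun_prop))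
    exact (h1.comp (h2.prodMk measurable_fst)).lintegral_prod_right'

lemma val_add (step : ℕ → ι → E → ℝ → ι)
    (hstep : ∀ t q, Measurable fun p : E × ℝ => step t q p.1 p.2)
    (g : ι → E → ℝ≥0∞) (n : ℕ) (s : E) (k : ℕ) :
    ∀ t q, val step g (n + k) t q s = ∫⁻ X, val step g n (t + k) (run step k t q X (meas X s)) s
      ∂(Measure.pi fun _ : Fin k => stdGaussian E) := by
  induction k with
  | zero => intro t q; simp [run]
  | succ k ih =>
    intro t q
    rw [← add_assoc, val]
    simp_rw [ih]
    have hmp := (measurePreserving_piFinSuccAbove (fun _ : Fin (k + 1) => stdGaussian E) 0).symm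
    have hm : Measurable fun X : Fin (k + 1) → E =>
        val step g n (t + (k + 1)) (run step (k + 1) t q X (meas X s)) s :=
      (Measurable.of_discrete (f := fun q => val step g n (t + (k + 1)) q s)).comp
        (measurable_run step hstep _ _ _ _ _ measurable_const measurable_id
          ((measurable_meas _).comp (measurable_id.prodMk measurable_const)))
    rw [← hmp.lintegral_comp hm]
    refine Eq.trans ?_ (lintegral_prod _ (hm.comp hmp.measurable).aemeasurable).symm
    congr 1 with x
    congr 1 with X
    simp only [Function.comp_apply, MeasurableEquiv.piFinSuccAbove_symm_apply, Fin.insertNthEquiv, Equiv.coe_fn_mk,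
      Fin.insertNth_zero', run, Fin.cons_zero, Fin.tail_cons, meas]
    rw [show t + 1 + k = t + (k + 1) by ring]
    rfl

omit [MeasurableSpace ι] [Countable ι] [MeasurableSingletonClass ι] in
lemma val_of_id (step : ℕ → ι → E → ℝ → ι) (g : ι → E → ℝ≥0∞) (T : ℕ)
    (hid : ∀ t, T ≤ t → ∀ q x y, step t q x y = q) (n : ℕ) :
    ∀ t, T ≤ t → ∀ q s, val step g n t q s = g q s := by
  induction n with
  | zero => intro t _ q s; rfl
  | succ n ih =>
    intro t ht q s
    simp [val, hid t ht, ih (t + 1) (by omega)]

theorem frost_val (σ : Measure E) [SFinite σ] {m : ℕ} (hm : 1 ≤ m)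
    (hk : 2 * m ≤ Module.finrank ℝ E) (hk' : Module.finrank ℝ E ≤ 16 * m)
    (step : ℕ → ι → E → ℝ → ι)
    (hstep : ∀ t q, Measurable fun p : E × ℝ => step t q p.1 p.2)
    (g : ι → E → ℝ≥0∞) (hg : ∀ q, Measurable (g q)) {N : ℝ} (hN : 0 < N)
    (hF : ∀ q, Frost (σ.withDensity (g q)) (2 * (2 * m)) N) {Λ : ℝ} (hΛ : 1 ≤ Λ)
    (hQ : ∀ t q, ∃ Q : Finset ι, (Q.card : ℝ) ≤ Λ ^ (2 * m) ∧
      ∀ X y, run step (2 * m) t q X y ∈ Q) (b : ℕ) :
    ∀ t q, Frost (σ.withDensity (val step g (b * (2 * m)) t q)) (2 * (2 * m))
      ((Λ * 1024 ^ (2 * m)) ^ b * N) := by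
  induction b with
  | zero => intro t q; simpa [val] using hF q
  | succ b ih =>
    intro t q
    obtain ⟨Q, hQc, hQm⟩ := hQ t q
    have h1 : val step g ((b + 1) * (2 * m)) t q = fun s => ∫⁻ X,
        val step g (b * (2 * m)) (t + 2 * m) (run step (2 * m) t q X (meas X s)) s
          ∂(Measure.pi fun _ : Fin (2 * m) => stdGaussian E) := by
      ext s
      rw [Nat.succ_mul, val_add step hstep]
    have h2 := block_step σ (k := 2 * m) (by omega)
      (fun x r hr => lintegral_volume_image_le hm hk hk' x hr) Q
      (val step g (b * (2 * m)) (t + 2 * m)) (measurable_val step hstep g hg _ _)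
      (N := (Λ * 1024 ^ (2 * m)) ^ b * N) (by positivity) (fun q' _ => ih _ q')
      (fun p => run step (2 * m) t q p.1 p.2) (fun p => hQm _ _)
      (fun q' => (measurable_run step hstep _ _ _ _ _ measurable_const measurable_fst
        measurable_snd) (measurableSet_singleton q')) hΛ hQc
    rw [h1, pow_succ', mul_assoc]
    exact h2

end Crest.Agent.R322
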