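import Mathlib

/-! Slab estimates for measures with a Frostman (Morrey) bound. -/

set_option autoImplicit false

open MeasureTheory Metric Set
open scoped ENNReal

namespace Crest.Agent.R322

variable {E : Type*} [NormedAddCommGroup E] [InnerProductSpace ℝ E] [FiniteDimensional ℝ E]
  [MeasurableSpace E] [BorelSpace E]

/-- Frostman bound of exponent `g` and constant `N`. -/
def Frost (ν : Measure E) (g : ℕ) (N : ℝ) : Prop :=
  ∀ (x : E) (r : ℝ), 0 < r → ν (closedBall x r) ≤ ENNReal.ofReal (N * r ^ g)

/-- distance from `v` to the subspace `V` -/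
noncomputable def dperp (V : Submodule ℝ E) (v : E) : ℝ := ‖v - V.starProjection v‖

omit [MeasurableSpace E] [BorelSpace E] in
lemma continuous_dperp (V : Submodule ℝ E) : Continuous (dperp V) := by
  unfold dperp
  fun_prop

omit [MeasurableSpace E] [BorelSpace E] in
lemma dperp_nonneg (V : Submodule ℝ E) (v : E) : 0 ≤ dperp V v := norm_nonneg _

omit [MeasurableSpace E] [BorelSpace E] in
lemma dperp_le (V : Submodule ℝ E) (v w : E) (hw : w ∈ V) : dperp V v ≤ ‖v - w‖ := by
  unfold dperp
  rw [Submodule.starProjection_minimal]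
  exact ciInf_le_of_le ⟨0, by rintro _ ⟨x, rfl⟩; exact norm_nonneg _⟩ ⟨w, hw⟩ le_rfl

omit [MeasurableSpace E] [BorelSpace E] in
lemma dperp_le_norm (V : Submodule ℝ E) (v : E) : dperp V v ≤ ‖v‖ := by
  simpa using dperp_le V v 0 V.zero_mem

omit [MeasurableSpace E] [BorelSpace E] in
lemma dperp_smul (V : Submodule ℝ E) (c : ℝ) (v : E) : dperp V (c • v) = |c| * dperp V v := by
  unfold dperp
  rw [map_smul, ← smul_sub, norm_smul, Real.norm_eq_abs]

theorem slab_le (ν : Measure E) [SFinite ν] {g : ℕ} {N : ℝ} (hN : 0 ≤ N) (hν : Frost ν g N)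
    (V : Submodule ℝ E) {j : ℕ} (hj : Module.finrank ℝ V ≤ j) (a : E) {R ρ : ℝ} (hρ : 0 < ρ)
    (hR : 0 ≤ R) :
    ν {s | s ∈ closedBall a R ∧ dperp V (s - a) ≤ ρ} ≤
      ENNReal.ofReal (N * (2 * ρ) ^ g * ((R + ρ) / ρ) ^ j) := by
  classical
  set μ : Measure V := Measure.addHaar with hμ
  set S : Set E := {s | s ∈ closedBall a R ∧ dperp V (s - a) ≤ ρ} with hS
  have hSm : MeasurableSet S := by
    apply MeasurableSet.inter measurableSet_closedBall
    exact measurableSet_le ((continuous_dperp V).comp (by fun_prop)).measurable measurable_const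
  set T : Set (E × V) := {p | ‖p.2‖ ≤ R + ρ ∧ p.1 ∈ closedBall (a + (p.2 : E)) (2 * ρ)} with hT
  have hTm : MeasurableSet T := by
    apply IsClosed.measurableSet
    apply IsClosed.inter
    · exact isClosed_le (f := fun p : E × V => ‖p.2‖) (by fun_prop) (by fun_prop)
    · exact isClosed_le (f := fun p : E × V => dist p.1 (a + (p.2 : E))) (by fun_prop) (by fun_prop)
  set b : ℝ≥0∞ := μ (ball 0 1) with hb
  have hb0 : b ≠ 0 := (measure_ball_pos μ 0 one_pos).ne'
  have hbt : b ≠ ∞ := measure_ball_lt_top.ne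
  set n := Module.finrank ℝ V with hn
  have h1 : ν S * (ENNReal.ofReal (ρ ^ n) * b) ≤ (ν.prod μ) T := by
    rw [Measure.prod_apply hTm]
    calc ν S * (ENNReal.ofReal (ρ ^ n) * b)
        = ∫⁻ _ in S, ENNReal.ofReal (ρ ^ n) * b ∂ν := by
          rw [setLIntegral_const, mul_comm]
      _ ≤ ∫⁻ s in S, μ (Prod.mk s ⁻¹' T) ∂ν := by
          refine setLIntegral_mono' hSm fun s hs => ?_
          rw [← Measure.addHaar_closedBall μ (V.orthogonalProjectionOnto (s - a)) hρ.le]
          apply measure_mono
          intro v hv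
          rw [mem_closedBall, dist_eq_norm] at hv
          obtain ⟨hs1, hs2⟩ := hs
          rw [mem_closedBall, dist_eq_norm] at hs1
          have hp : ‖V.orthogonalProjectionOnto (s - a)‖ ≤ R :=
            (V.norm_orthogonalProjectionOnto_apply_le _).trans hs1
          refine ⟨?_, ?_⟩
          · calc ‖v‖ = ‖(v - V.orthogonalProjectionOnto (s - a)) + V.orthogonalProjectionOnto (s - a)‖ := by
                  simp
              _ ≤ ρ + R := (norm_add_le _ _).trans (add_le_add hv hp)
              _ = R + ρ := add_comm _ _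
          · rw [mem_closedBall, dist_eq_norm]
            have hv' : ‖(v : E) - V.starProjection (s - a)‖ ≤ ρ := hv
            calc ‖s - (a + (v : E))‖
                = ‖((s - a) - V.starProjection (s - a)) - ((v : E) - V.starProjection (s - a))‖ := by
                  congr 1; abel
              _ ≤ ρ + ρ := (norm_sub_le _ _).trans (add_le_add hs2 hv')
              _ = 2 * ρ := by ring
      _ ≤ ∫⁻ s, μ (Prod.mk s ⁻¹' T) ∂ν := setLIntegral_le_lintegral _ _
  have h2 : (ν.prod μ) T ≤ ENNReal.ofReal (N * (2 * ρ) ^ g) * (ENNReal.ofReal ((R + ρ) ^ n) * b) := by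
    rw [Measure.prod_apply_symm hTm]
    calc ∫⁻ v, ν ((fun s => (s, v)) ⁻¹' T) ∂μ
        ≤ ∫⁻ v, (closedBall (0 : V) (R + ρ)).indicator
            (fun _ => ENNReal.ofReal (N * (2 * ρ) ^ g)) v ∂μ := by
          refine lintegral_mono fun v => ?_
          by_cases hv : v ∈ closedBall (0 : V) (R + ρ)
          · rw [indicator_of_mem hv]
            refine le_trans (measure_mono ?_) (hν (a + v) (2 * ρ) (by positivity))
            intro s hs
            exact hs.2
          · rw [indicator_of_notMem hv]
            have : (fun s => (s, v)) ⁻¹' T = ∅ := by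
              ext s
              simp only [mem_preimage, mem_empty_iff_false, iff_false]
              intro h
              exact hv (by simpa using h.1)
            simp [this]
      _ = ENNReal.ofReal (N * (2 * ρ) ^ g) * (ENNReal.ofReal ((R + ρ) ^ n) * b) := by
          rw [lintegral_indicator measurableSet_closedBall, setLIntegral_const,
            Measure.addHaar_closedBall μ 0 (by positivity)]
  have h3 := h1.trans h2
  rw [← mul_assoc, ← mul_assoc] at h3
  have h4 := (ENNReal.mul_le_mul_iff_left hb0 hbt).1 h3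
  have hρn : 0 < ρ ^ n := by positivity
  have h5 : ν S ≤ ENNReal.ofReal (N * (2 * ρ) ^ g) * ENNReal.ofReal ((R + ρ) ^ n) /
      ENNReal.ofReal (ρ ^ n) := by
    rw [ENNReal.le_div_iff_mul_le (Or.inl (by simpa using hρn)) (Or.inl ENNReal.ofReal_ne_top)]
    exact h4
  refine h5.trans ?_
  rw [← ENNReal.ofReal_mul (by positivity), ← ENNReal.ofReal_div_of_pos hρn]
  apply ENNReal.ofReal_le_ofReal
  rw [mul_div_assoc, ← div_pow]
  gcongr
  rw [le_div_iff₀ hρ]; linarith

/-- The Riesz-type integral of the distance to a subspace. -/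
theorem riesz_le (ν : Measure E) [SFinite ν] {k : ℕ} {N : ℝ} (hN : 0 ≤ N)
    (hν : Frost ν (2 * k) N) (V : Submodule ℝ E) (hj : Module.finrank ℝ V + 1 ≤ k)
    (a : E) {R : ℝ} (hR : 0 < R) (hsupp : ν (closedBall a R)ᶜ = 0) :
    ∫⁻ s, (ENNReal.ofReal (dperp V (s - a)))⁻¹ ^ k ∂ν ≤
      ENNReal.ofReal (16 ^ k * N * R ^ k) := by
  obtain ⟨j, rfl⟩ : ∃ j, k = j + 1 := ⟨k - 1, by omega⟩
  set k := j + 1 with hk
  have hj' : Module.finrank ℝ V ≤ j := by omega
  set S : ℕ → Set E := fun i => {s | s ∈ closedBall a R ∧ dperp V (s - a) ≤ R / 2 ^ i} with hS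
  have hSm : ∀ i, MeasurableSet (S i) := by
    intro i
    apply MeasurableSet.inter measurableSet_closedBall
    exact measurableSet_le ((continuous_dperp V).comp (by fun_prop)).measurable measurable_const
  have hpt : ∀ s ∈ closedBall a R, (ENNReal.ofReal (dperp V (s - a)))⁻¹ ^ k ≤
      ∑' i, (S i).indicator (fun _ => ENNReal.ofReal ((2 ^ (i + 1) / R) ^ k)) s := by
    intro s hs
    have hd : dperp V (s - a) ≤ R := (dperp_le_norm V _).trans (by simpa [dist_eq_norm] using hs)
    rcases (dperp_nonneg V (s - a)).eq_or_lt with h0 | hpos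
    · have : ∀ i, ENNReal.ofReal ((1 / R) ^ k) ≤
          (S i).indicator (fun _ => ENNReal.ofReal ((2 ^ (i + 1) / R) ^ k)) s := by
        intro i
        have : s ∈ S i := ⟨hs, by rw [← h0]; positivity⟩
        rw [indicator_of_mem this]
        apply ENNReal.ofReal_le_ofReal
        gcongr
        exact one_le_pow₀ (by norm_num)
      refine le_trans ?_ (ENNReal.tsum_le_tsum this)
      rw [ENNReal.tsum_const_eq_top_of_ne_zero (by simp; positivity)]
      exact le_top
    · have hex : ∃ i : ℕ, R / 2 ^ (i + 1) < dperp V (s - a) := by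
        obtain ⟨i, hi⟩ := pow_unbounded_of_one_lt (R / dperp V (s - a)) (by norm_num : (1 : ℝ) < 2)
        refine ⟨i, ?_⟩
        rw [div_lt_iff₀ hpos] at hi
        rw [div_lt_iff₀ (by positivity), pow_succ]
        nlinarith [pow_pos (by norm_num : (0 : ℝ) < 2) i]
      classical
      set i := Nat.find hex with hi
      have hi1 : R / 2 ^ (i + 1) < dperp V (s - a) := Nat.find_spec hex
      have hi2 : dperp V (s - a) ≤ R / 2 ^ i := by
        rcases Nat.eq_zero_or_pos i with h | h
        · rw [h]; simpa using hd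
        · have := Nat.find_min hex (m := i - 1) (by omega)
          rw [show i - 1 + 1 = i by omega] at this
          exact not_lt.1 this
      refine le_trans ?_ (ENNReal.le_tsum i)
      rw [indicator_of_mem (show s ∈ S i from ⟨hs, hi2⟩), ← ENNReal.ofReal_inv_of_pos hpos,
        ← ENNReal.ofReal_pow (by positivity)]
      apply ENNReal.ofReal_le_ofReal
      gcongr
      rw [inv_le_comm₀ hpos (by positivity), inv_div]
      exact hi1.le
  have hae : ∀ᵐ s ∂ν, s ∈ closedBall a R := hsupp
  calc ∫⁻ s, (ENNReal.ofReal (dperp V (s - a)))⁻¹ ^ k ∂ν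
      ≤ ∫⁻ s, ∑' i, (S i).indicator (fun _ => ENNReal.ofReal ((2 ^ (i + 1) / R) ^ k)) s ∂ν := by
        refine lintegral_mono_ae ?_
        filter_upwards [hae] with s hs using hpt s hs
    _ = ∑' i, ENNReal.ofReal ((2 ^ (i + 1) / R) ^ k) * ν (S i) := by
        rw [lintegral_tsum fun i => (measurable_const.indicator (hSm i)).aemeasurable]
        congr 1 with i
        rw [lintegral_indicator (hSm i), setLIntegral_const]
    _ ≤ ∑' i : ℕ, ENNReal.ofReal (16 ^ k * N * R ^ k / 2 / 2 ^ i) := by
        refine ENNReal.tsum_le_tsum fun i => ?_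
        have h1 := slab_le ν hN hν V hj' a (R := R) (ρ := R / 2 ^ i) (by positivity) hR.le
        refine le_trans (mul_le_mul_right h1 _) ?_
        rw [← ENNReal.ofReal_mul (by positivity)]
        apply ENNReal.ofReal_le_ofReal
        have h2 : (R + R / 2 ^ i) / (R / 2 ^ i) ≤ 2 ^ (i + 1) := by
          rw [div_le_iff₀ (by positivity), pow_succ]
          have : R / 2 ^ i ≤ R := div_le_self hR.le (one_le_pow₀ (by norm_num))
          have h3 : (2 : ℝ) ^ i * 2 * (R / 2 ^ i) = 2 * R := by field_simp
          linarith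
        calc (2 ^ (i + 1) / R) ^ k * (N * (2 * (R / 2 ^ i)) ^ (2 * k) *
              ((R + R / 2 ^ i) / (R / 2 ^ i)) ^ j)
            ≤ (2 ^ (i + 1) / R) ^ k * (N * (2 * (R / 2 ^ i)) ^ (2 * k) * (2 ^ (i + 1)) ^ j) := by
              gcongr
          _ = 16 ^ k * N * R ^ k / 2 / 2 ^ i := by
              have h16 : (16 : ℝ) ^ k = (2 ^ k) ^ 4 := by
                rw [← pow_mul, mul_comm, pow_mul]; norm_num
              rw [h16, hk]
              simp only [mul_pow, div_pow, pow_succ, pow_mul', pow_zero, one_mul]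
              field_simp
    _ = ENNReal.ofReal (16 ^ k * N * R ^ k) := by
        rw [← ENNReal.ofReal_tsum_of_nonneg (fun i => by positivity)
          (summable_geometric_two' _), tsum_geometric_two']

end Crest.Agent.R322
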