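import Crest.Agent.R322.Block

/-! The uniform law on the unit sphere, seen as a measure on the ambient space. -/

set_option autoImplicit false

open MeasureTheory ProbabilityTheory Metric Set Filter
open scoped ENNReal NNReal RealInnerProductSpace Topology Pointwise

namespace Crest.Agent.R322

variable (E : Type*) [NormedAddCommGroup E] [InnerProductSpace ℝ E] [FiniteDimensional ℝ E]
  [MeasurableSpace E] [BorelSpace E]

/-- uniform law on the sphere -/
noncomputable def unif : Measure (sphere (0 : E) 1) :=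
  ((volume : Measure E).toSphere Set.univ)⁻¹ • (volume : Measure E).toSphere

/-- uniform law on the sphere, pushed to the ambient space -/
noncomputable def sph : Measure E := (unif E).map Subtype.val

instance : IsFiniteMeasure (unif E) := by
  unfold unif
  by_cases h : (volume : Measure E).toSphere = 0
  · rw [h, smul_zero]; infer_instance
  · exact Measure.smul_finite _ (by rwa [Ne, ENNReal.inv_eq_top, Measure.measure_univ_eq_zero])

instance : IsFiniteMeasure (sph E) := by unfold sph; infer_instance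

variable {E}

lemma sph_apply [Nontrivial E] {A : Set E} (hA : MeasurableSet A) :
    sph E A = (volume (ball (0 : E) 1))⁻¹ * volume (Ioo (0 : ℝ) 1 • (sphere (0 : E) 1 ∩ A)) := by
  have hd : (Module.finrank ℝ E : ℝ≥0∞) ≠ 0 := by simpa using Module.finrank_pos.ne'
  rw [sph, Measure.map_apply measurable_subtype_coe hA, unif, Measure.smul_apply,
    Measure.toSphere_apply_univ, Measure.toSphere_apply' _ (measurable_subtype_coe hA),
    Subtype.image_preimage_coe, smul_eq_mul,
    ENNReal.mul_inv (Or.inl hd) (Or.inl (ENNReal.natCast_ne_top _)), mul_comm _⁻¹ _⁻¹, mul_assoc,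
    ← mul_assoc _⁻¹ (Module.finrank ℝ E : ℝ≥0∞),
    ENNReal.inv_mul_cancel hd (ENNReal.natCast_ne_top _), one_mul]

lemma sph_univ [Nontrivial E] : sph E univ = 1 := by
  rw [sph, Measure.map_apply measurable_subtype_coe MeasurableSet.univ, unif, preimage_univ,
    Measure.smul_apply, smul_eq_mul]
  apply ENNReal.inv_mul_cancel
  · rw [Ne, Measure.measure_univ_eq_zero]
    exact Measure.toSphere_ne_zero (volume : Measure E)
  · exact measure_ne_top _ _

lemma sph_compl_sphere : sph E (sphere (0 : E) 1)ᶜ = 0 := by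
  rw [sph, Measure.map_apply measurable_subtype_coe isClosed_sphere.measurableSet.compl]
  have : (Subtype.val : sphere (0 : E) 1 → E) ⁻¹' (sphere (0 : E) 1)ᶜ = ∅ := by
    ext x; simp
  rw [this, measure_empty]

lemma sph_preimage [Nontrivial E] (R : E ≃ₗᵢ[ℝ] E) {A : Set E} (hA : MeasurableSet A) :
    sph E (R ⁻¹' A) = sph E A := by
  rw [sph_apply hA, sph_apply (R.continuous.measurable hA)]
  congr 1
  have : Ioo (0 : ℝ) 1 • (sphere (0 : E) 1 ∩ R ⁻¹' A) =
      R ⁻¹' (Ioo (0 : ℝ) 1 • (sphere (0 : E) 1 ∩ A)) := by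
    ext y
    constructor
    · rintro ⟨t, ht, s, ⟨hs1, hs2⟩, rfl⟩
      exact ⟨t, ht, R s, ⟨by simpa using hs1, hs2⟩, by simp⟩
    · rintro ⟨t, ht, s, ⟨hs1, hs2⟩, hs3⟩
      refine ⟨t, ht, R.symm s, ⟨by simpa using hs1, by simpa using hs2⟩, ?_⟩
      apply R.injective
      simpa using hs3
  rw [this]
  exact R.measurePreserving.measure_preimage_emb R.toHomeomorph.measurableEmbedding _

/-- mass of a slab -/
lemma sph_slab_le [Nontrivial E] (V : Submodule ℝ E) {j : ℕ} (hj : Module.finrank ℝ V ≤ j)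
    {ρ : ℝ} (hρ : 0 < ρ) :
    sph E {s | dperp V s ≤ ρ} ≤
      ENNReal.ofReal ((2 * ρ) ^ Module.finrank ℝ E * ((1 + ρ) / ρ) ^ j) := by
  set b := volume (ball (0 : E) 1) with hb
  have hb0 : b ≠ 0 := (measure_ball_pos volume 0 one_pos).ne'
  have hbt : b ≠ ∞ := measure_ball_lt_top.ne
  have hF : Frost (volume : Measure E) (Module.finrank ℝ E) b.toReal := by
    intro x r hr
    rw [Measure.addHaar_closedBall _ _ hr.le, ENNReal.ofReal_mul ENNReal.toReal_nonneg,
      ENNReal.ofReal_toReal hbt, mul_comm]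
  have h1 := slab_le volume ENNReal.toReal_nonneg hF V hj 0 hρ zero_le_one
  rw [sph_apply (measurableSet_le (continuous_dperp V).measurable measurable_const)]
  have hsub : Ioo (0 : ℝ) 1 • (sphere (0 : E) 1 ∩ {s | dperp V s ≤ ρ}) ⊆
      {s | s ∈ closedBall (0 : E) 1 ∧ dperp V (s - 0) ≤ ρ} := by
    rintro _ ⟨t, ht, s, ⟨hs1, hs2⟩, rfl⟩
    have hs1' : ‖s‖ = 1 := by simpa using hs1
    have hs2' : dperp V s ≤ ρ := hs2
    constructor
    · simp [norm_smul, hs1', abs_of_pos ht.1, ht.2.le]
    · simp only [sub_zero, dperp_smul, abs_of_pos ht.1]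
      nlinarith [ht.1, ht.2, dperp_nonneg V s]
  calc b⁻¹ * volume (Ioo (0 : ℝ) 1 • (sphere (0 : E) 1 ∩ {s | dperp V s ≤ ρ}))
      ≤ b⁻¹ * ENNReal.ofReal (b.toReal * (2 * ρ) ^ Module.finrank ℝ E * ((1 + ρ) / ρ) ^ j) := by
        gcongr
        exact (measure_mono hsub).trans h1
    _ = _ := by
        rw [mul_assoc, ENNReal.ofReal_mul ENNReal.toReal_nonneg, ENNReal.ofReal_toReal hbt,
          ← mul_assoc, ENNReal.inv_mul_cancel hb0 hbt, one_mul]

/-- mass of a cap -/
lemma sph_closedBall_le [Nontrivial E] {e : ℕ} (he : e + 1 ≤ Module.finrank ℝ E) (x : E) {r : ℝ}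
    (hr : 0 < r) (hr1 : r ≤ 1) :
    sph E (closedBall x r) ≤ ENNReal.ofReal (8 ^ Module.finrank ℝ E * r ^ e) := by
  by_cases hne : (closedBall x r ∩ sphere (0 : E) 1).Nonempty
  · obtain ⟨s₀, hs₀, -⟩ := hne
    have hsub : closedBall x r ⊆ {s | dperp (Submodule.span ℝ {s₀}) s ≤ 2 * r} := by
      intro s hs
      refine (dperp_le _ s s₀ (Submodule.mem_span_singleton_self _)).trans ?_
      rw [mem_closedBall] at hs hs₀
      rw [← dist_eq_norm]
      linarith [dist_triangle s x s₀, dist_comm x s₀]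
    have hj : Module.finrank ℝ (Submodule.span ℝ ({s₀} : Set E)) ≤ 1 := by
      simpa using finrank_span_le_card (R := ℝ) ({s₀} : Set E)
    refine (measure_mono hsub).trans ((sph_slab_le _ hj (by positivity)).trans ?_)
    apply ENNReal.ofReal_le_ofReal
    obtain ⟨c, hc⟩ := Nat.exists_eq_add_of_le he
    rw [hc]
    have h1 : r ^ c ≤ 1 := pow_le_one₀ hr.le hr1
    have h2 : (2 : ℝ) ≤ 2 ^ (e + 1 + c) := le_self_pow₀ (by norm_num) (by omega)
    calc (2 * (2 * r)) ^ (e + 1 + c) * ((1 + 2 * r) / (2 * r)) ^ 1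
        = 4 ^ (e + 1 + c) * r ^ e * (r ^ c * ((1 + 2 * r) / 2)) := by
          rw [show 2 * (2 * r) = 4 * r by ring, mul_pow, pow_add r, pow_add r]
          field_simp
      _ ≤ 4 ^ (e + 1 + c) * r ^ e * (1 * 2 ^ (e + 1 + c)) := by
          gcongr
          linarith
      _ = 8 ^ (e + 1 + c) * r ^ e := by
          rw [show (8 : ℝ) = 4 * 2 by norm_num, mul_pow]; ring
  · have : closedBall x r ⊆ (sphere (0 : E) 1)ᶜ := fun s hs hs' => hne ⟨s, hs, hs'⟩
    rw [measure_mono_null this sph_compl_sphere]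
    exact bot_le

/-- The Frostman constant of a cap. -/
lemma frost_cap [Nontrivial E] {k : ℕ} (hk : 3 * k + 1 ≤ Module.finrank ℝ E) (z : E) {ε : ℝ}
    (hε : 0 < ε) (hε1 : ε ≤ 1) :
    Frost ((sph E).withDensity ((closedBall z ε).indicator 1)) (2 * k)
      (8 ^ Module.finrank ℝ E * ε ^ k) := by
  intro x r hr
  rw [withDensity_indicator_one measurableSet_closedBall,
    Measure.restrict_apply measurableSet_closedBall]
  rcases le_total r ε with h | h
  · refine (measure_mono inter_subset_left).trans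
      ((sph_closedBall_le hk x hr (h.trans hε1)).trans ?_)
    apply ENNReal.ofReal_le_ofReal
    rw [show 3 * k = k + 2 * k by ring, pow_add, mul_assoc]
    gcongr
  · refine (measure_mono inter_subset_right).trans
      ((sph_closedBall_le hk z hε hε1).trans ?_)
    apply ENNReal.ofReal_le_ofReal
    rw [show 3 * k = k + 2 * k by ring, pow_add, mul_assoc]
    gcongr

/-- Few samples do not determine the signal. -/
lemma few_samples [Nontrivial E] {T : ℕ} (hT : 4 * T ≤ Module.finrank ℝ E)
    (hd : 2 ≤ Module.finrank ℝ E) (X : Fin T → E) (F : (Fin T → ℝ) → E) (hF : Measurable F)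
    {ε : ℝ} (hε : ε ≤ 1 / 10) :
    sph E {s | s ∈ closedBall (F (meas X s)) ε} ≤ ENNReal.ofReal (3 / 5) := by
  set W := Submodule.span ℝ (range X) with hW
  set S : Set E := {s | s ∈ closedBall (F (meas X s)) ε} with hS
  have hSm : MeasurableSet S :=
    measurableSet_le (f := fun s => dist s (F (meas X s)))
      (measurable_id.dist (hF.comp (measurable_meas' X))) measurable_const
  set R := W.reflection with hR
  have hmeas : ∀ s, meas X (R s) = meas X s := by
    intro s
    ext i
    have hX : R (X i) = X i :=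
      Submodule.reflection_mem_subspace_eq_self (Submodule.subset_span (mem_range_self i))
    simp only [meas]
    conv_lhs => rw [← hX]
    exact R.inner_map_map _ _
  have hinter : S ∩ R ⁻¹' S ⊆ {s | dperp W s ≤ 1 / 10} := by
    rintro s ⟨h1, h2⟩
    simp only [hS, mem_preimage, mem_ofPred_eq, hmeas, mem_closedBall] at h1 h2
    have h3 : dist s (R s) ≤ 2 * ε := by
      linarith [dist_triangle s (F (meas X s)) (R s), dist_comm (R s) (F (meas X s))]
    have h4 : s - R s = (2 : ℝ) • (s - W.starProjection s) := by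
      rw [hR, Submodule.reflection_apply, two_smul, two_smul]; abel
    rw [dist_eq_norm, h4, norm_smul] at h3
    simp only [Real.norm_ofNat] at h3
    simp only [mem_ofPred_eq, dperp]
    linarith
  have h1 : sph E (S ∩ R ⁻¹' S) ≤ ENNReal.ofReal (1 / 5) := by
    refine (measure_mono hinter).trans
      ((sph_slab_le W (finrank_span_range_le X) (by norm_num)).trans ?_)
    apply ENNReal.ofReal_le_ofReal
    set d := Module.finrank ℝ E
    have h2 : ((1 + 1 / 10) / (1 / 10) : ℝ) ^ T ≤ 2 ^ d := by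
      calc ((1 + 1 / 10) / (1 / 10) : ℝ) ^ T ≤ (2 ^ 4) ^ T := by gcongr; norm_num
        _ = 2 ^ (4 * T) := by rw [pow_mul]
        _ ≤ 2 ^ d := pow_le_pow_right₀ (by norm_num) hT
    calc (2 * (1 / 10) : ℝ) ^ d * ((1 + 1 / 10) / (1 / 10)) ^ T ≤ (2 * (1 / 10)) ^ d * 2 ^ d := by
          gcongr
      _ = (2 / 5) ^ d := by rw [← mul_pow]; norm_num
      _ ≤ (2 / 5) ^ 2 := pow_le_pow_of_le_one (by norm_num) (by norm_num) hd
      _ ≤ 1 / 5 := by norm_num
  have h2 := measure_union_add_inter (μ := sph E) S (R.continuous.measurable hSm)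
  rw [sph_preimage R hSm] at h2
  have h3 : sph E (S ∪ R ⁻¹' S) ≤ 1 := (measure_mono (subset_univ _)).trans sph_univ.le
  have h4 : 2 * sph E S ≤ 2 * ENNReal.ofReal (3 / 5) := by
    rw [two_mul, ← h2]
    refine (add_le_add h3 h1).trans (le_of_eq ?_)
    rw [← ENNReal.ofReal_one, ← ENNReal.ofReal_add (by norm_num) (by norm_num),
      ← ENNReal.ofReal_ofNat, ← ENNReal.ofReal_mul (by norm_num)]
    norm_num
  exact (ENNReal.mul_le_mul_iff_right (by norm_num) (by norm_num)).1 h4

end Crest.Agent.R322
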